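import Mathlib

/-!
Lengths of Hom groups over a central commutative Artinian base ring.
For an algebra `R` over a commutative ring `S`, `hlen S R A B` is the `S`-length of the group of
`R`-linear maps from `A` to `B`.
-/

set_option linter.style.haveILetI false
set_option linter.unusedVariables false

namespace Vale.Agent.Lib.P195

universe u v

section Inst

variable {S : Type*} [CommRing S] {R : Type*} [Ring R] [Algebra S R]
variable {A A' B B' B'' : Type*}
  [AddCommGroup A] [Module R A] [AddCommGroup A'] [Module R A']
  [AddCommGroup B] [Module R B] [AddCommGroup B'] [Module R B'] [AddCommGroup B''] [Module R B'']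
variable [Module S B] [IsScalarTower S R B] [Module S B'] [IsScalarTower S R B']
  [Module S B''] [IsScalarTower S R B'']

/-- Postcomposition as an `S`-linear map. -/
def postS (S : Type*) [CommRing S] {R : Type*} [Ring R] [Algebra S R]
    {A B B' : Type*} [AddCommGroup A] [Module R A]
    [AddCommGroup B] [Module R B] [AddCommGroup B'] [Module R B']
    [Module S B] [IsScalarTower S R B] [Module S B'] [IsScalarTower S R B']
    (v : B →ₗ[R] B') : (A →ₗ[R] B) →ₗ[S] (A →ₗ[R] B') where
  toFun f := v ∘ₗ f
  map_add' f g := by ext; simp
  map_smul' s f := by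
    ext x
    simp [LinearMap.map_smul_of_tower]

/-- Precomposition as an `S`-linear map. -/
def preS (S : Type*) [CommRing S] {R : Type*} [Ring R] [Algebra S R]
    {A A' B : Type*} [AddCommGroup A] [Module R A] [AddCommGroup A'] [Module R A']
    [AddCommGroup B] [Module R B]
    [Module S B] [IsScalarTower S R B]
    (u : A' →ₗ[R] A) : (A →ₗ[R] B) →ₗ[S] (A' →ₗ[R] B) where
  toFun f := f ∘ₗ u
  map_add' f g := by ext; simp
  map_smul' s f := by
    ext x
    simp

@[simp] lemma postS_apply (v : B →ₗ[R] B') (f : A →ₗ[R] B) : postS S v f = v ∘ₗ f := rfl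

@[simp] lemma preS_apply (u : A' →ₗ[R] A) (f : A →ₗ[R] B) : preS S u f = f ∘ₗ u := rfl

/-- Finiteness of the length of a Hom group. -/
lemma len_ne_top (S : Type*) [CommRing S] {R : Type*} [Ring R] [Algebra S R]
    [IsArtinianRing S] [Module.Finite S R]
    {A B : Type*} [AddCommGroup A] [Module R A] [AddCommGroup B] [Module R B]
    [Module S B] [IsScalarTower S R B] [Module.Finite R A] [Module.Finite R B] :
    Module.length S (A →ₗ[R] B) ≠ ⊤ := by
  obtain ⟨m, s, hs⟩ := Module.Finite.exists_fin (R := R) (M := A)
  have hB : Module.Finite S B := Module.Finite.trans R B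
  let Φ : (A →ₗ[R] B) →ₗ[S] (Fin m → B) :=
    { toFun := fun f i => f (s i)
      map_add' := fun f g => by ext; simp
      map_smul' := fun c f => by ext; simp }
  have hΦ : Function.Injective Φ := by
    intro f g hfg
    apply LinearMap.ext_on_range hs
    intro i
    exact congr_fun hfg i
  have h1 : IsNoetherian S (A →ₗ[R] B) := isNoetherian_of_injective Φ hΦ
  have h2 : IsArtinian S (A →ₗ[R] B) := isArtinian_of_injective Φ hΦ
  exact Module.length_ne_top

end Inst

section Hlen

variable (S : Type*) [CommRing S] {R : Type*} [Ring R] [Algebra S R]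

/-- The `S`-module structure on an `R`-module by restriction of scalars. -/
noncomputable abbrev modS (R : Type*) [Ring R] [Algebra S R] (B : Type*) [AddCommGroup B]
    [Module R B] : Module S B :=
  Module.compHom B (algebraMap S R)

lemma towerS (R : Type*) [Ring R] [Algebra S R] (B : Type*) [AddCommGroup B] [Module R B] :
    letI := modS S R B
    IsScalarTower S R B := by
  let := modS S R B
  exact IsScalarTower.of_algebraMap_smul fun _ _ => rfl

/-- The `S`-length of the group of `R`-linear maps from `A` to `B`, as a natural number. -/
noncomputable def hlen (R : Type*) [Ring R] [Algebra S R] (A B : Type*) [AddCommGroup A] [Module R A]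
    [AddCommGroup B] [Module R B] : ℕ :=
  letI := modS S R B
  haveI := towerS S R B
  (Module.length S (A →ₗ[R] B)).toNat

variable {A A' B B' B'' : Type*}
  [AddCommGroup A] [Module R A] [AddCommGroup A'] [Module R A']
  [AddCommGroup B] [Module R B] [AddCommGroup B'] [Module R B'] [AddCommGroup B''] [Module R B'']

lemma hlen_congr_post (v : B →ₗ[R] B') (hv : Function.Bijective fun f : A →ₗ[R] B => v ∘ₗ f) :
    hlen S R A B = hlen S R A B' := by
  letI := modS S R B
  haveI := towerS S R B
  letI := modS S R B'
  haveI := towerS S R B'
  unfold hlen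
  rw [(LinearEquiv.ofBijective (postS S v (A := A)) hv).length_eq]

lemma hlen_congr_pre (u : A' →ₗ[R] A) (hu : Function.Bijective fun f : A →ₗ[R] B => f ∘ₗ u) :
    hlen S R A B = hlen S R A' B := by
  letI := modS S R B
  haveI := towerS S R B
  unfold hlen
  rw [(LinearEquiv.ofBijective (preS S u (B := B)) hu).length_eq]

variable [IsArtinianRing S] [Module.Finite S R]

lemma hlen_add_of_exact_post [Module.Finite R A] [Module.Finite R B] [Module.Finite R B']
    [Module.Finite R B''] [Module.Projective R A]
    (f : B' →ₗ[R] B) (g : B →ₗ[R] B'') (hf : Function.Injective f) (hg : Function.Surjective g)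
    (hfg : Function.Exact f g) :
    hlen S R A B = hlen S R A B' + hlen S R A B'' := by
  letI := modS S R B
  haveI := towerS S R B
  letI := modS S R B'
  haveI := towerS S R B'
  letI := modS S R B''
  haveI := towerS S R B''
  unfold hlen
  have h := Module.length_eq_add_of_exact (R := S) (postS S f (A := A)) (postS S g (A := A))
    (by
      intro a b hab
      ext x
      exact hf (LinearMap.congr_fun hab x))
    (by
      intro c
      obtain ⟨d, hd⟩ := Module.projective_lifting_property g c hg
      exact ⟨d, hd⟩)
    (by
      intro c
      constructor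
      · intro hc
        have hc' : ∀ x, g (c x) = 0 := fun x => LinearMap.congr_fun hc x
        have hex : ∀ x, ∃ y, f y = c x := fun x => (hfg (c x)).mp (hc' x)
        choose y hy using hex
        refine ⟨{ toFun := y, map_add' := ?_, map_smul' := ?_ }, ?_⟩
        · intro a b
          apply hf
          simp [hy]
        · intro r a
          apply hf
          simp [hy]
        · ext x
          exact hy x
      · rintro ⟨d, rfl⟩
        ext x
        exact (hfg _).mpr ⟨d x, rfl⟩)
  rw [h, ENat.toNat_add (len_ne_top S) (len_ne_top S)]

lemma hlen_add_of_extend [Module.Finite R A] [Module.Finite R A'] [Module.Finite R B']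
    [Module.Finite R B]
    (i : A' →ₗ[R] B') (p : B' →ₗ[R] A) (hi : Function.Injective i) (hp : Function.Surjective p)
    (hip : Function.Exact i p)
    (hext : ∀ f : A' →ₗ[R] B, ∃ g : B' →ₗ[R] B, g ∘ₗ i = f) :
    hlen S R B' B = hlen S R A B + hlen S R A' B := by
  letI := modS S R B
  haveI := towerS S R B
  unfold hlen
  have h := Module.length_eq_add_of_exact (R := S) (preS S p (B := B)) (preS S i (B := B))
    (by
      intro a b hab
      ext x
      obtain ⟨y, rfl⟩ := hp x
      exact LinearMap.congr_fun hab y)
    (by
      intro c
      obtain ⟨g, hg⟩ := hext c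
      exact ⟨g, hg⟩)
    (by
      intro c
      constructor
      · intro hc
        have hc' : ∀ x, c (i x) = 0 := fun x => LinearMap.congr_fun hc x
        -- descend along the surjection
        have hker : ∀ x y, p x = p y → c x = c y := by
          intro x y hxy
          have : p (x - y) = 0 := by simp [hxy]
          obtain ⟨z, hz⟩ := (hip (x - y)).mp this
          have hz' := hc' z
          rw [hz, map_sub, sub_eq_zero] at hz'
          exact hz'
        choose σ hσ using hp
        refine ⟨{ toFun := fun a => c (σ a), map_add' := ?_, map_smul' := ?_ }, ?_⟩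
        · intro a b
          rw [← map_add]
          apply hker
          simp [hσ]
        · intro r a
          simp only [RingHom.id_apply]
          rw [← map_smul]
          apply hker
          simp [hσ]
        · ext x
          exact hker _ _ (hσ _)
      · rintro ⟨d, rfl⟩
        ext x
        have : p (i x) = 0 := (hip _).mpr ⟨x, rfl⟩
        simp [this])
  rw [h, ENat.toNat_add (len_ne_top S) (len_ne_top S)]

lemma hlen_lt_of_post [Module.Finite R A] [Module.Finite R B] [Module.Finite R B']
    (v : B →ₗ[R] B') (hv : Function.Injective v) (f : A →ₗ[R] B')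
    (hf : ¬ LinearMap.range f ≤ LinearMap.range v) :
    hlen S R A B < hlen S R A B' := by
  letI := modS S R B
  haveI := towerS S R B
  letI := modS S R B'
  haveI := towerS S R B'
  unfold hlen
  have hB' : Module.Finite S B' := Module.Finite.trans R B'
  -- the range of postcomposition is a proper submodule
  let W : Submodule S (A →ₗ[R] B') := LinearMap.range (postS S v (A := A))
  have hW : W ≠ ⊤ := by
    intro hW
    have : f ∈ W := by rw [hW]; trivial
    obtain ⟨g, hg⟩ := this
    apply hf
    rintro _ ⟨x, rfl⟩
    exact ⟨g x, by rw [← hg]; rfl⟩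
  obtain ⟨m, s, hs⟩ := Module.Finite.exists_fin (R := R) (M := A)
  let Φ : (A →ₗ[R] B') →ₗ[S] (Fin m → B') :=
    { toFun := fun f i => f (s i)
      map_add' := fun f g => by ext; simp
      map_smul' := fun c f => by ext; simp }
  have hΦ : Function.Injective Φ := by
    intro f g hfg
    apply LinearMap.ext_on_range hs
    intro i
    exact congr_fun hfg i
  have h1 : IsNoetherian S (A →ₗ[R] B') := isNoetherian_of_injective Φ hΦ
  have h2 : IsArtinian S (A →ₗ[R] B') := isArtinian_of_injective Φ hΦ
  have hlt : Module.length S W < Module.length S (A →ₗ[R] B') := Submodule.length_lt hW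
  have heq : Module.length S (A →ₗ[R] B) = Module.length S W :=
    (LinearEquiv.ofInjective (postS S v (A := A)) (by
      intro a b hab
      ext x
      exact hv (LinearMap.congr_fun hab x))).length_eq
  rw [← heq] at hlt
  have hne1 : Module.length S (A →ₗ[R] B) ≠ ⊤ := len_ne_top S
  have hne2 : Module.length S (A →ₗ[R] B') ≠ ⊤ := len_ne_top S
  obtain ⟨a, ha⟩ := ENat.ne_top_iff_exists.mp hne1
  obtain ⟨b, hb⟩ := ENat.ne_top_iff_exists.mp hne2
  rw [← ha, ← hb] at hlt ⊢
  simpa using hlt

end Hlen

end Vale.Agent.Lib.P195
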