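import Vale.Agent.Lib.P195.PolyRank
import Vale.Agent.Lib.P195.HomLength

/-!
Modules on a fixed vector space as points of an affine space. A module `X` with `Ext¹(X, X) = 0`
has a polynomial certificate: a polynomial not vanishing at the point of `X`, such that every module
at whose point it does not vanish is isomorphic to `X`.
-/

set_option linter.unusedVariables false
set_option linter.unusedSectionVars false

open Matrix Module MvPolynomial

set_option linter.style.haveILetI false

namespace Vale.Agent.Lib.P195

universe u v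

section Hom

variable {k : Type*} [Field k] {A : Type*} [Ring A] [Algebra k A]
variable {ι : Type*} [Fintype ι] [DecidableEq ι] (e : Basis ι k A) {D : ℕ}

/-- The point of the parameter space describing the action of `A` on a module with a basis:
the coefficient of `bY l` in `e j • bY l'`. -/
noncomputable def pt {Y : Type*} [AddCommGroup Y] [Module A Y] [Module k Y]
    (bY : Basis (Fin D) k Y) : ι × Fin D × Fin D → k :=
  fun q => bY.repr (e q.1 • bY q.2.2) q.2.1

variable {W : Type*} [AddCommGroup W] [Module A W] [Module k W] [IsScalarTower k A W]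
variable {ιW : Type*} [Fintype ιW] [DecidableEq ιW]

/-- The polynomial matrix whose kernel at the point of a module `Y` is `Hom_A(W, Y)`. -/
noncomputable def homMat (bW : Basis ιW k W) (D : ℕ) :
    Matrix (ι × ιW × Fin D) (Fin D × ιW) (MvPolynomial (ι × Fin D × Fin D) k) :=
  Matrix.of fun r c =>
    (if c.2 = r.2.1 then X (r.1, r.2.2, c.1) else 0) -
      (if c.1 = r.2.2 then C (bW.repr (e r.1 • bW r.2.1) c.2) else 0)

variable {Y : Type*} [AddCommGroup Y] [Module A Y] [Module k Y] [IsScalarTower k A Y]

/-- The `k`-linear map with a given matrix. -/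
noncomputable def vecMap (bW : Basis ιW k W) (bY : Basis (Fin D) k Y) (F : Fin D × ιW → k) :
    W →ₗ[k] Y :=
  bW.constr k (fun m' => ∑ l', F (l', m') • bY l')

lemma vecMap_basis (bW : Basis ιW k W) (bY : Basis (Fin D) k Y) (F : Fin D × ιW → k) (m' : ιW) :
    vecMap bW bY F (bW m') = ∑ l', F (l', m') • bY l' := by
  simp [vecMap]

lemma repr_vecMap_basis (bW : Basis ιW k W) (bY : Basis (Fin D) k Y) (F : Fin D × ιW → k)
    (m' : ιW) (l : Fin D) : bY.repr (vecMap bW bY F (bW m')) l = F (l, m') := by
  rw [vecMap_basis, map_sum, Finsupp.finsetSum_apply]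
  simp [Finsupp.single_apply]

lemma repr_smul_vecMap (bW : Basis ιW k W) (bY : Basis (Fin D) k Y) (F : Fin D × ιW → k)
    (j : ι) (m : ιW) (l : Fin D) :
    bY.repr (e j • vecMap bW bY F (bW m)) l = ∑ l', F (l', m) * pt e bY (j, l, l') := by
  rw [vecMap_basis, Finset.smul_sum, map_sum, Finsupp.finsetSum_apply]
  refine Finset.sum_congr rfl fun l' _ => ?_
  rw [smul_comm, map_smul, Finsupp.smul_apply, smul_eq_mul]
  rfl

lemma repr_vecMap_smul (bW : Basis ιW k W) (bY : Basis (Fin D) k Y) (F : Fin D × ιW → k)
    (j : ι) (m : ιW) (l : Fin D) :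
    bY.repr (vecMap bW bY F (e j • bW m)) l =
      ∑ m', bW.repr (e j • bW m) m' * F (l, m') := by
  conv_lhs => rw [← bW.sum_repr (e j • bW m)]
  rw [map_sum, map_sum, Finsupp.finsetSum_apply]
  refine Finset.sum_congr rfl fun m' _ => ?_
  rw [map_smul, map_smul, Finsupp.smul_apply, smul_eq_mul, repr_vecMap_basis]

lemma mulVec_homMat (bW : Basis ιW k W) (bY : Basis (Fin D) k Y) (F : Fin D × ιW → k)
    (r : ι × ιW × Fin D) :
    ((evalMat (pt e bY) (homMat e bW D)) *ᵥ F) r =
      bY.repr (e r.1 • vecMap bW bY F (bW r.2.1) - vecMap bW bY F (e r.1 • bW r.2.1)) r.2.2 := by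
  obtain ⟨j, m, l⟩ := r
  simp only [map_sub, Finsupp.sub_apply]
  rw [repr_smul_vecMap, repr_vecMap_smul]
  simp only [Matrix.mulVec, dotProduct, homMat, Matrix.map_apply, Matrix.of_apply]
  rw [Fintype.sum_prod_type]
  simp only [map_sub, eval_X, apply_ite (MvPolynomial.eval (pt e bY)), map_zero, eval_C, sub_mul,
    ite_mul, zero_mul, Finset.sum_sub_distrib]
  simp only [Finset.sum_ite_eq', Finset.sum_ite_eq, Finset.mem_univ, if_true]
  congr 1
  · exact Finset.sum_congr rfl fun l' _ => mul_comm _ _
  · rw [Finset.sum_eq_single l]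
    · simp
    · intro b _ hb
      simp [hb]
    · simp

lemma ker_iff (bW : Basis ιW k W) (bY : Basis (Fin D) k Y) (F : Fin D × ιW → k) :
    (evalMat (pt e bY) (homMat e bW D)) *ᵥ F = 0 ↔
      ∀ j m, e j • vecMap bW bY F (bW m) = vecMap bW bY F (e j • bW m) := by
  constructor
  · intro h j m
    rw [← sub_eq_zero]
    apply bY.repr.injective
    ext l
    have := congrFun h (j, m, l)
    rw [mulVec_homMat] at this
    simpa using this
  · intro h
    funext r
    rw [mulVec_homMat, h]
    simp

lemma isLinear_of_basis (bW : Basis ιW k W) (f : W →ₗ[k] Y)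
    (h : ∀ j m, e j • f (bW m) = f (e j • bW m)) (a : A) (w : W) : f (a • w) = a • f w := by
  have h1 : ∀ (a : A) (m : ιW), f (a • bW m) = a • f (bW m) := by
    intro a m
    rw [← e.sum_repr a]
    simp only [Finset.sum_smul, map_sum]
    refine Finset.sum_congr rfl fun j _ => ?_
    rw [smul_assoc, map_smul, ← h, smul_assoc]
  rw [← bW.sum_repr w]
  simp only [Finset.smul_sum, map_sum]
  refine Finset.sum_congr rfl fun m _ => ?_
  rw [smul_comm, map_smul, h1, map_smul, smul_comm]

/-- A `k`-linear map which commutes with `A` as an `A`-linear map. -/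
def aLin (f : W →ₗ[k] Y) (h : ∀ (a : A) (w : W), f (a • w) = a • f w) : W →ₗ[A] Y where
  toFun := f
  map_add' := f.map_add
  map_smul' := h

@[simp] lemma aLin_apply (f : W →ₗ[k] Y) (h : ∀ (a : A) (w : W), f (a • w) = a • f w) (w : W) :
    aLin f h w = f w := rfl

/-- The matrix of an `A`-linear map. -/
noncomputable def homVec (bW : Basis ιW k W) (bY : Basis (Fin D) k Y) :
    (W →ₗ[A] Y) →ₗ[k] (Fin D × ιW → k) where
  toFun f := fun c => bY.repr (f (bW c.2)) c.1
  map_add' f g := by
    funext c
    simp
  map_smul' c f := by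
    funext d
    simp

lemma vecMap_homVec (bW : Basis ιW k W) (bY : Basis (Fin D) k Y) (f : W →ₗ[A] Y) (w : W) :
    vecMap bW bY (homVec bW bY f) w = f w := by
  have : vecMap bW bY (homVec bW bY f) = f.restrictScalars k := by
    apply bW.ext
    intro m
    rw [vecMap_basis]
    simp only [homVec, LinearMap.coe_mk, AddHom.coe_mk, LinearMap.restrictScalars_apply]
    exact bY.sum_repr (f (bW m))
  rw [this]
  rfl

lemma homVec_injective (bW : Basis ιW k W) (bY : Basis (Fin D) k Y) :
    Function.Injective (homVec (A := A) bW bY) := by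
  intro f g hfg
  ext w
  rw [← vecMap_homVec bW bY f, ← vecMap_homVec bW bY g, hfg]

lemma range_homVec (bW : Basis ιW k W) (bY : Basis (Fin D) k Y) :
    LinearMap.range (homVec (A := A) bW bY) =
      LinearMap.ker (evalMat (pt e bY) (homMat e bW D)).mulVecLin := by
  ext F
  constructor
  · rintro ⟨f, rfl⟩
    rw [LinearMap.mem_ker, Matrix.mulVecLin_apply, ker_iff]
    intro j m
    rw [vecMap_homVec, vecMap_homVec, map_smul]
  · intro hF
    rw [LinearMap.mem_ker, Matrix.mulVecLin_apply, ker_iff] at hF
    refine ⟨aLin (vecMap bW bY F) (isLinear_of_basis e bW _ hF), ?_⟩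
    funext c
    simp only [homVec, LinearMap.coe_mk, AddHom.coe_mk, aLin_apply]
    rw [repr_vecMap_basis]

/-- The dimension of a Hom space in terms of the matrix. -/
lemma finrank_hom_eq (bW : Basis ιW k W) (bY : Basis (Fin D) k Y) :
    Module.finrank k (W →ₗ[A] Y) =
      Module.finrank k (LinearMap.ker (evalMat (pt e bY) (homMat e bW D)).mulVecLin) := by
  rw [← range_homVec e bW bY, LinearMap.finrank_range_of_inj (homVec_injective bW bY)]

end Hom

section Count

variable {k : Type*} [Field k] {A : Type*} [Ring A] [Algebra k A] [Module.Finite k A]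
variable {X X' Y : Type*} [AddCommGroup X] [Module A X] [AddCommGroup X'] [Module A X']
  [AddCommGroup Y] [Module A Y] [Module k Y] [IsScalarTower k A Y] [FiniteDimensional k Y]
  {t : ℕ}

/-- Finite dimensionality of a Hom space out of a finite module. -/
lemma finiteDimensional_hom [Module.Finite A X] : FiniteDimensional k (X →ₗ[A] Y) := by
  obtain ⟨m, s, hs⟩ := Module.Finite.exists_fin (R := A) (M := X)
  let Φ : (X →ₗ[A] Y) →ₗ[k] (Fin m → Y) :=
    { toFun := fun f i => f (s i)
      map_add' := fun f g => by ext; simp
      map_smul' := fun c f => by ext; simp }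
  have hΦ : Function.Injective Φ := by
    intro f g hfg
    apply LinearMap.ext_on_range hs
    intro i
    exact congr_fun hfg i
  exact FiniteDimensional.of_injective Φ hΦ

/-- Count of dimensions along a presentation by a finite free module. -/
lemma hom_count (i : X' →ₗ[A] (Fin t → A)) (p : (Fin t → A) →ₗ[A] X)
    (hp : Function.Surjective p) (hex : Function.Exact i p) [Module.Finite A X] [Module.Finite A X'] :
    Module.finrank k ((Fin t → A) →ₗ[A] Y) = t * Module.finrank k Y ∧
    Module.finrank k ((Fin t → A) →ₗ[A] Y) =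
      Module.finrank k (X →ₗ[A] Y) + Module.finrank k (LinearMap.range (preS k i (B := Y))) := by
  haveI : FiniteDimensional k (X →ₗ[A] Y) := finiteDimensional_hom
  haveI : FiniteDimensional k (X' →ₗ[A] Y) := finiteDimensional_hom
  haveI : FiniteDimensional k ((Fin t → A) →ₗ[A] Y) := finiteDimensional_hom
  constructor
  · rw [← ((Pi.basisFun A (Fin t)).constr k (M' := Y)).finrank_eq]
    simp [Module.finrank_pi_fintype]
  · have h := LinearMap.finrank_range_add_finrank_ker (preS k i (B := Y))
    have hinj : Function.Injective (preS k p (B := Y)) := by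
      intro a b hab
      ext x
      obtain ⟨y, rfl⟩ := hp x
      exact LinearMap.congr_fun hab y
    have hker : LinearMap.ker (preS k i (B := Y)) = LinearMap.range (preS k p (B := Y)) := by
      ext c
      constructor
      · intro hc
        have hc' : ∀ x, c (i x) = 0 := fun x => LinearMap.congr_fun hc x
        have hker : ∀ x y, p x = p y → c x = c y := by
          intro x y hxy
          have : p (x - y) = 0 := by simp [hxy]
          obtain ⟨z, hz⟩ := (hex (x - y)).mp this
          have hz' := hc' z
          rw [hz, map_sub, sub_eq_zero] at hz'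
          exact hz'
        choose σ hσ using hp
        refine ⟨{ toFun := fun a => c (σ a), map_add' := ?_, map_smul' := ?_ }, ?_⟩
        · intro a b
          rw [← map_add]
          apply hker
          simp [hσ]
        · intro r a
          simp only [RingHom.id_apply]
          rw [← map_smul]
          apply hker
          simp [hσ]
        · ext x
          exact hker _ _ (hσ _)
      · rintro ⟨d, rfl⟩
        ext x
        have : p (i x) = 0 := (hex _).mpr ⟨x, rfl⟩
        simp [this]
    rw [hker, LinearMap.finrank_range_of_inj hinj] at h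
    omega

end Count

section Cert

variable {k : Type*} [Field k] {A : Type*} [Ring A] [Algebra k A] [Module.Finite k A]
variable {ι : Type*} [Fintype ι] [DecidableEq ι] (e : Basis ι k A) {D : ℕ}
variable {X : Type*} [AddCommGroup X] [Module A X] [Module k X] [IsScalarTower k A X]
variable {X' : Type*} [AddCommGroup X'] [Module A X'] [Module k X'] [IsScalarTower k A X']
variable {ιX' : Type*} [Fintype ιX'] [DecidableEq ιX'] {t : ℕ}

/-- The certificate of a module with vanishing first self-extension, phrased through a
presentation by a finite free module and the extension property of maps. -/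
theorem rigid_cert (bX : Basis (Fin D) k X) (bX' : Basis ιX' k X')
    (i : X' →ₗ[A] (Fin t → A)) (p : (Fin t → A) →ₗ[A] X)
    (hp : Function.Surjective p) (hex : Function.Exact i p)
    (hrig : ∀ f : X' →ₗ[A] X, ∃ g : (Fin t → A) →ₗ[A] X, g ∘ₗ i = f) :
    ∃ g : MvPolynomial (ι × Fin D × Fin D) k, MvPolynomial.eval (pt e bX) g ≠ 0 ∧
      ∀ (Y : Type v) [AddCommGroup Y] [Module A Y] [Module k Y] [IsScalarTower k A Y]
        (bY : Basis (Fin D) k Y), MvPolynomial.eval (pt e bY) g ≠ 0 → Nonempty (X ≃ₗ[A] Y) := by
  classical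
  haveI : FiniteDimensional k X := bX.finiteDimensional_of_finite
  haveI : FiniteDimensional k X' := bX'.finiteDimensional_of_finite
  haveI : Module.Finite A X := Module.Finite.of_restrictScalars_finite k A X
  haveI : Module.Finite A X' := Module.Finite.of_restrictScalars_finite k A X'
  set x := pt e bX with hx
  -- the vector of the identity
  let v₁ : Fin D × Fin D → k := fun c => if c.1 = c.2 then 1 else 0
  have hid : vecMap bX bX v₁ = LinearMap.id := by
    apply bX.ext
    intro m
    rw [vecMap_basis]
    simp [v₁, Finset.sum_ite_eq', ite_smul]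
  have hv₁ : (evalMat x (homMat e bX D)) *ᵥ v₁ = 0 := by
    rw [hx, ker_iff, hid]
    intro j m
    rfl
  obtain ⟨h₁, vh, hh₁, hvh, -, hsec⟩ := section_exists (homMat e bX D) x v₁ hv₁
  obtain ⟨h₂, -, hh₂, -, hsemi, -⟩ :=
    section_exists (homMat e bX' D) x 0 (by simp)
  let Mv : Matrix (Fin D) (Fin D) (MvPolynomial (ι × Fin D × Fin D) k) :=
    Matrix.of fun l' m' => vh (l', m')
  refine ⟨h₁ * h₂ * Mv.det, ?_, ?_⟩
  · -- nonvanishing at the point of `X`
    rw [map_mul, map_mul, eval_det]
    have hM : evalMat x Mv = (MvPolynomial.eval x h₁) • (1 : Matrix (Fin D) (Fin D) k) := by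
      ext a b
      simp only [Matrix.map_apply, Mv, Matrix.of_apply, hvh, v₁, Matrix.smul_apply, smul_eq_mul,
        Matrix.one_apply]
    rw [hM, Matrix.det_smul, Matrix.det_one, mul_one]
    exact mul_ne_zero (mul_ne_zero hh₁ hh₂) (pow_ne_zero _ hh₁)
  · intro Y _ _ _ _ bY hY
    haveI : FiniteDimensional k Y := bY.finiteDimensional_of_finite
    rw [map_mul, map_mul, eval_det] at hY
    have hy₁ : MvPolynomial.eval (pt e bY) h₁ ≠ 0 := fun h0 => hY (by rw [h0]; simp)
    have hy₂ : MvPolynomial.eval (pt e bY) h₂ ≠ 0 := fun h0 => hY (by rw [h0]; simp)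
    have hyd : (evalMat (pt e bY) Mv).det ≠ 0 := fun h0 => hY (by rw [h0]; simp)
    -- the inequality of dimensions
    have hD₁ : Module.finrank k Y = D := by simpa using Module.finrank_eq_card_basis bY
    have hD₂ : Module.finrank k X = D := by simpa using Module.finrank_eq_card_basis bX
    have hXY : Module.finrank k (X' →ₗ[A] Y) ≤ Module.finrank k (X' →ₗ[A] X) := by
      rw [finrank_hom_eq e bX' bY, finrank_hom_eq e bX' bX]
      exact hsemi _ hy₂
    have hcY := hom_count (k := k) (Y := Y) i p hp hex
    have hcX := hom_count (k := k) (Y := X) i p hp hex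
    haveI : FiniteDimensional k (X' →ₗ[A] Y) := finiteDimensional_hom
    haveI : FiniteDimensional k (X' →ₗ[A] X) := finiteDimensional_hom
    have hrY : Module.finrank k (LinearMap.range (preS k i (B := Y)))
        ≤ Module.finrank k (X' →ₗ[A] Y) := Submodule.finrank_le _
    have hrX : Module.finrank k (LinearMap.range (preS k i (B := X)))
        = Module.finrank k (X' →ₗ[A] X) := by
      have htop : LinearMap.range (preS k i (B := X)) = ⊤ := by
        rw [LinearMap.range_eq_top]
        intro f
        obtain ⟨g, hg⟩ := hrig f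
        exact ⟨g, hg⟩
      rw [htop, finrank_top]
    have hge : Module.finrank k (X →ₗ[A] X) ≤ Module.finrank k (X →ₗ[A] Y) := by
      rw [hD₁] at hcY
      rw [hD₂] at hcX
      omega
    have hF := hsec (pt e bY) hy₁ (by
      rw [← finrank_hom_eq e bX bY, hx, ← finrank_hom_eq e bX bX]
      exact hge)
    -- the map
    set F : Fin D × Fin D → k := fun c => MvPolynomial.eval (pt e bY) (vh c) with hFdef
    rw [ker_iff] at hF
    have hlin := isLinear_of_basis e bX (vecMap bX bY F) hF
    have hinj : Function.Injective (vecMap bX bY F) := by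
      rw [injective_iff_map_eq_zero]
      intro w hw
      have hcoord : evalMat (pt e bY) Mv *ᵥ (fun m => bX.repr w m) = 0 := by
        funext l
        have h1 : bY.repr (vecMap bX bY F w) l = 0 := by rw [hw]; simp
        conv_lhs at h1 => rw [← bX.sum_repr w]
        rw [map_sum, map_sum, Finsupp.finsetSum_apply] at h1
        simp only [map_smul, Finsupp.smul_apply, smul_eq_mul, repr_vecMap_basis] at h1
        simp only [Matrix.mulVec, dotProduct, Matrix.map_apply, Mv, Matrix.of_apply, Pi.zero_apply]
        rw [← h1]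
        exact Finset.sum_congr rfl fun m _ => mul_comm _ _
      have h0 := Matrix.eq_zero_of_mulVec_eq_zero hyd hcoord
      rw [← bX.sum_repr w]
      simp [congrFun h0]
    have hsurj : Function.Surjective (vecMap bX bY F) :=
      (LinearMap.injective_iff_surjective_of_finrank_eq_finrank (by rw [hD₁, hD₂])).mp hinj
    exact ⟨LinearEquiv.ofBijective (aLin (vecMap bX bY F) hlin) ⟨hinj, hsurj⟩⟩

end Cert

end Vale.Agent.Lib.P195
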