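import Vale.Agent.Lib.P195.Core
import Vale.Agent.Lib.P195.RigidCert

/-!
Modules with vanishing first self-extension of a fixed dimension fall into finitely many
isomorphism classes, by the polynomial certificate and the Hilbert basis theorem. As a consequence,
a module `M` with `Ext^i(M, A) = 0` for `i ≥ 1`, `Ext¹(M, M) = 0`, `Ext^i(M, M) = 0` for large `i`
is projective if infinitely many of its syzygies are direct sums of modules of bounded length.
-/

set_option linter.style.haveILetI false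
set_option linter.unusedVariables false
set_option linter.unusedSectionVars false

open CategoryTheory Abelian Module

namespace Vale.Agent.Lib.P195

universe u v

section Dim

variable (k : Type v) [Field k] {A : Type u} [Ring A] [Algebra k A] [Module.Finite k A]

lemma finrank_le_of_length (D : ℕ) (Y : Type u) [AddCommGroup Y] [Module A Y] [Module k Y]
    [IsScalarTower k A Y] (hY : Module.length A Y ≤ D) :
    Module.finrank k Y ≤ D * Module.finrank k A := by
  induction D generalizing Y with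
  | zero =>
    have h0 : Module.length A Y = 0 := by simpa using hY
    have : Subsingleton Y := Module.length_eq_zero_iff.mp h0
    simp [Module.finrank_zero_of_subsingleton]
  | succ D ih =>
    by_cases hsub : Subsingleton Y
    · simp [Module.finrank_zero_of_subsingleton]
    · haveI : Nontrivial Y := not_subsingleton_iff_nontrivial.mp hsub
      obtain ⟨y, hy⟩ := exists_ne (0 : Y)
      let N : Submodule A Y := Submodule.span A {y}
      have hnt : Nontrivial N := by
        refine ⟨⟨⟨y, Submodule.mem_span_singleton_self y⟩, 0, ?_⟩⟩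
        intro h
        exact hy (congrArg Subtype.val h)
      have hadd : Module.length A Y = Module.length A N + Module.length A (Y ⧸ N) :=
        (Module.length_eq_add_of_exact N.subtype N.mkQ N.injective_subtype
          (Submodule.mkQ_surjective N) (LinearMap.exact_subtype_mkQ N)).symm ▸ rfl
      have hfl : Module.length A Y ≠ ⊤ := by
        intro h
        rw [h] at hY
        exact absurd hY (by simp)
      have hq : Module.length A (Y ⧸ N) ≤ (D : ℕ) := by
        have h1 : (1 : ℕ∞) ≤ Module.length A N := Order.one_le_iff_pos.mpr Module.length_pos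
        have h2 : Module.length A (Y ⧸ N) + 1 ≤ ((D + 1 : ℕ) : ℕ∞) := by
          calc Module.length A (Y ⧸ N) + 1 ≤ Module.length A (Y ⧸ N) + Module.length A N := by
                gcongr
            _ = Module.length A Y := by rw [hadd, add_comm]
            _ ≤ _ := hY
        have hne : Module.length A (Y ⧸ N) ≠ ⊤ := by
          intro h
          rw [h] at h2
          exact absurd h2 (by simp)
        lift Module.length A (Y ⧸ N) to ℕ using hne with l
        norm_cast at h2 ⊢
        omega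
      have hih := ih (Y ⧸ N) hq
      have hfinl : IsFiniteLength A Y := Module.length_ne_top_iff.mp hfl
      have hno : IsNoetherian A Y := (isFiniteLength_iff_isNoetherian_isArtinian.mp hfinl).1
      haveI : Module.Finite k Y := Module.Finite.trans A Y
      let q : Y →ₗ[k] Y ⧸ N := N.mkQ.restrictScalars k
      have hr := LinearMap.finrank_range_add_finrank_ker q
      have hrange : LinearMap.range q = ⊤ := by
        rw [LinearMap.range_eq_top]
        exact Submodule.mkQ_surjective N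
      rw [hrange, finrank_top] at hr
      let φ : A →ₗ[k] Y := (LinearMap.toSpanSingleton A Y y).restrictScalars k
      have hker : LinearMap.ker q ≤ LinearMap.range φ := by
        intro x hx
        have hx' : x ∈ N := by
          have : N.mkQ x = 0 := hx
          simpa using this
        obtain ⟨a, rfl⟩ := Submodule.mem_span_singleton.mp hx'
        exact ⟨a, rfl⟩
      have h3 : Module.finrank k (LinearMap.ker q) ≤ Module.finrank k A :=
        (Submodule.finrank_mono hker).trans (LinearMap.finrank_range_le φ)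
      have h4 : Module.finrank k Y ≤ D * Module.finrank k A + Module.finrank k A := by omega
      calc Module.finrank k Y ≤ D * Module.finrank k A + Module.finrank k A := h4
        _ = (D + 1) * Module.finrank k A := by ring

end Dim

section Classes

variable (k : Type v) [Field k] {A : Type u} [Ring A] [Algebra k A] [Module.Finite k A]

/-- The modules of a fixed dimension with vanishing first self-extension fall into finitely many
isomorphism classes, in the sense that a finite part of the family meets every class of the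
family. -/
theorem finite_iso_classes {K : Type*} (Z : K → ModuleCat.{u} A)
    [∀ j, Module k (Z j)] [∀ j, IsScalarTower k A (Z j)]
    (hfin : ∀ j, Module.Finite A (Z j)) (D : ℕ) (hdim : ∀ j, Module.finrank k (Z j) = D)
    (hrig : ∀ j, ∀ e : Ext (Z j) (Z j) 1, e = 0) :
    ∃ F : Finset K, ∀ j, ∃ i ∈ F, Nonempty (Z i ≃ₗ[A] Z j) := by
  classical
  haveI hno : IsNoetherian A A := isNoetherian_of_tower k inferInstance
  haveI hfk : ∀ j, Module.Finite k (Z j) := fun j => by
    haveI := hfin j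
    exact Module.Finite.trans A (Z j)
  let b : ∀ j, Basis (Fin D) k (Z j) := fun j => Module.finBasisOfFinrankEq k (Z j) (hdim j)
  let e := Module.finBasis k A
  have hcert : ∀ j, ∃ g : MvPolynomial (Fin (Module.finrank k A) × Fin D × Fin D) k,
      MvPolynomial.eval (pt e (b j)) g ≠ 0 ∧
        ∀ i, MvPolynomial.eval (pt e (b i)) g ≠ 0 → Nonempty (Z j ≃ₗ[A] Z i) := by
    intro j
    haveI := hfin j
    obtain ⟨t, p, hp⟩ := Module.Finite.exists_fin' A (Z j)
    have hsh : (LinearMap.shortComplexKer p).ShortExact := LinearMap.shortExact_shortComplexKer hp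
    have hrig' : ∀ f : (LinearMap.ker p) →ₗ[A] Z j,
        ∃ g : (Fin t → A) →ₗ[A] Z j, g ∘ₗ (LinearMap.ker p).subtype = f := by
      intro f
      obtain ⟨g, hg⟩ := extend_of_ext_vanish hsh (Z j) (hrig j) (ModuleCat.ofHom f)
      refine ⟨g.hom, ?_⟩
      have := congr_arg ModuleCat.Hom.hom hg
      simpa using this
    haveI : Module.Finite k (LinearMap.ker p) := Module.Finite.trans A _
    obtain ⟨g, hg, hg'⟩ := rigid_cert.{u} e (b j) (Module.finBasis k (LinearMap.ker p))
      (LinearMap.ker p).subtype p hp (LinearMap.exact_subtype_ker_map p) hrig'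
    exact ⟨g, hg, fun i hi => hg' (Z i) (b i) hi⟩
  choose g hg hg' using hcert
  obtain ⟨F, hF⟩ := noeth_pick (fun j => pt e (b j)) g hg
  refine ⟨F, fun j => ?_⟩
  obtain ⟨i, hi, hne⟩ := hF j
  exact ⟨i, hi, hg' i j hne⟩

end Classes

section Retract

variable {A : Type u} [Ring A]

/-- `Ext¹(X, X) = 0` passes to retracts. -/
lemma ext_retract_self {X Z : ModuleCat.{u} A} (r : Z ⟶ X) (q : X ⟶ Z) (hrq : r ≫ q = 𝟙 Z)
    (h : ∀ e : Ext X X 1, e = 0) (e : Ext Z Z 1) : e = 0 := by
  have ha : e.comp (Ext.mk₀ r) (add_zero 1) = 0 := by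
    have hb : (Ext.mk₀ q).comp (e.comp (Ext.mk₀ r) (add_zero 1)) (zero_add 1) = 0 := h _
    have hc : (Ext.mk₀ r).comp ((Ext.mk₀ q).comp (e.comp (Ext.mk₀ r) (add_zero 1)) (zero_add 1))
        (zero_add 1) = e.comp (Ext.mk₀ r) (add_zero 1) := by
      rw [Ext.mk₀_comp_mk₀_assoc, hrq, Ext.mk₀_id_comp]
    rw [← hc, hb, Ext.comp_zero]
  have hd : e = (e.comp (Ext.mk₀ r) (add_zero 1)).comp (Ext.mk₀ q) (add_zero 1) := by
    rw [Ext.comp_assoc_of_third_deg_zero, Ext.mk₀_comp_mk₀, hrq, Ext.comp_mk₀_id]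
  rw [hd, ha, Ext.zero_comp]

/-- Vanishing in the second variable passes to retracts. -/
lemma ext_retract_second {W X Z : ModuleCat.{u} A} {n : ℕ} (r : Z ⟶ X) (q : X ⟶ Z)
    (hrq : r ≫ q = 𝟙 Z) (h : ∀ e : Ext W X n, e = 0) (e : Ext W Z n) : e = 0 := by
  have hd : e = (e.comp (Ext.mk₀ r) (add_zero n)).comp (Ext.mk₀ q) (add_zero n) := by
    rw [Ext.comp_assoc_of_third_deg_zero, Ext.mk₀_comp_mk₀, hrq, Ext.comp_mk₀_id]
  rw [hd, h (e.comp (Ext.mk₀ r) (add_zero n)), Ext.zero_comp]

/-- A nonzero class with values in a finite product of modules has a nonzero component. -/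
lemma ext_component_ne_zero {W X : ModuleCat.{u} A} {n r : ℕ} (Y : Fin r → ModuleCat.{u} A)
    (φ : X ≃ₗ[A] ∀ j, Y j) (ξ : Ext W X n) (hξ : ξ ≠ 0) :
    ∃ j, ∃ (i : Y j ⟶ X) (q : X ⟶ Y j), i ≫ q = 𝟙 (Y j) ∧
      ξ.comp (Ext.mk₀ q) (add_zero n) ≠ 0 := by
  classical
  let pr : ∀ j, X ⟶ Y j := fun j => ModuleCat.ofHom (LinearMap.proj j ∘ₗ φ.toLinearMap)
  let inj : ∀ j, Y j ⟶ X := fun j =>
    ModuleCat.ofHom (φ.symm.toLinearMap ∘ₗ LinearMap.single A (fun j => Y j) j)
  have hid : ∀ j, inj j ≫ pr j = 𝟙 (Y j) := by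
    intro j
    ext y
    simp [inj, pr]
  have hsum : (∑ j, pr j ≫ inj j) = 𝟙 X := by
    ext x
    apply φ.injective
    funext j
    simp only [ModuleCat.hom_sum, ModuleCat.hom_comp, ModuleCat.hom_id, LinearMap.id_coe, id_eq,
      LinearMap.coe_sum, Finset.sum_apply, LinearMap.comp_apply, map_sum, pr, inj,
      ModuleCat.hom_ofHom, LinearEquiv.coe_coe, LinearEquiv.apply_symm_apply, Finset.sum_apply,
      LinearMap.proj_apply]
    simp
  by_contra hcon
  push Not at hcon
  apply hξ
  have h0 : ξ = ξ.comp (Ext.mk₀ (𝟙 X)) (add_zero n) := (Ext.comp_mk₀_id ξ).symm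
  rw [h0, ← hsum, Ext.mk₀_sum, Ext.comp_sum]
  refine Finset.sum_eq_zero fun j _ => ?_
  rw [← Ext.mk₀_comp_mk₀, ← Ext.comp_assoc_of_third_deg_zero,
    hcon j (inj j) (pr j) (hid j), Ext.zero_comp]

end Retract

section Diag

variable {A : Type u} [Ring A]

/-- The canonical class in `Ext^n(M, Ω^n M)`. -/
noncomputable def Syz.eta (s : Syz A) : ∀ n, Ext (s.X 0) (s.X n) n
  | 0 => Ext.mk₀ (𝟙 _)
  | n + 1 => (Syz.eta s n).comp (s.sexact n).extClass rfl

lemma Syz.eta_ne_zero (s : Syz A)
    (h₂ : ∀ i, 1 ≤ i → ∀ e : Ext (s.X 0) (ModuleCat.of A A) i, e = 0)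
    (hnp : ¬ Module.Projective A (s.X 0)) (n : ℕ) : s.eta n ≠ 0 := by
  induction n with
  | zero =>
    intro h
    apply hnp
    have h1 : 𝟙 (s.X 0) = 0 := (Ext.mk₀_bijective _ _).1 (by rw [Ext.mk₀_zero]; exact h)
    have hz : ∀ x : s.X 0, x = 0 := fun x => by
      have := congr_arg (fun f => f.hom x) h1
      simpa using this
    have : Subsingleton (s.X 0) := ⟨fun a b => by rw [hz a, hz b]⟩
    exact Module.Projective.of_free
  | succ n ih =>
    intro h
    obtain ⟨x₂, hx₂⟩ := Ext.covariant_sequence_exact₃ (s.X 0) (s.sexact n) (s.eta n) rfl h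
    cases n with
    | zero =>
      obtain ⟨σ, rfl⟩ := (Ext.mk₀_bijective _ _).2 x₂
      apply hnp
      rw [Ext.mk₀_comp_mk₀] at hx₂
      have h3 : σ ≫ s.π 0 = 𝟙 (s.X 0) := (Ext.mk₀_bijective _ _).1 hx₂
      refine Module.Projective.of_split σ.hom (s.π 0).hom ?_
      have := congr_arg ModuleCat.Hom.hom h3
      simpa using this
    | succ n =>
      apply ih
      rw [← hx₂, ext_proj_vanish (s.P (n + 1)) (h₂ _ (by omega)) x₂, Ext.zero_comp]

lemma Syz.ext_far (s : Syz A)
    (h₂ : ∀ i, 1 ≤ i → ∀ e : Ext (s.X 0) (ModuleCat.of A A) i, e = 0)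
    (q n : ℕ) (h : ∀ e : Ext (s.X 0) (s.X 0) (q + 1), e = 0)
    (e : Ext (s.X 0) (s.X n) (q + 1 + n)) : e = 0 := by
  induction n with
  | zero => exact h e
  | succ n ih =>
    refine ext_shift_second (S := s.sc n) (s.sexact n) (s.X 0) (q + 1 + n) ih ?_ e
    intro e'
    exact ext_proj_vanish (s.P n) (h₂ _ (by omega)) e'

lemma Syz.rigid (s : Syz A)
    (h₂ : ∀ i, 1 ≤ i → ∀ e : Ext (s.X 0) (ModuleCat.of A A) i, e = 0)
    (h₁ : ∀ e : Ext (s.X 0) (s.X 0) 1, e = 0) (n : ℕ) (e : Ext (s.X n) (s.X n) 1) : e = 0 :=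
  s.ext_tri_gen 0 0 h₁ (n + 1) (fun a ha _ e => h₂ a ha e) n (by omega) e

end Diag

section Main

variable (k : Type v) [Field k] {A : Type u} [Ring A] [Algebra k A] [Module.Finite k A]

include k

/-- There cannot be infinitely many syzygies with a retract of bounded length carrying the image
of the canonical class. -/
theorem no_bounded_retracts (s : Syz A)
    (h₂ : ∀ i, 1 ≤ i → ∀ e : Ext (s.X 0) (ModuleCat.of A A) i, e = 0)
    (h₁ : ∀ e : Ext (s.X 0) (s.X 0) 1, e = 0) (m : ℕ)
    (hm : ∀ i, m < i → ∀ e : Ext (s.X 0) (s.X 0) i, e = 0) (D : ℕ)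
    (G : Set ℕ) (hG : G.Infinite)
    (Z : G → ModuleCat.{u} A) (r : ∀ n : G, Z n ⟶ s.X n) (q : ∀ n : G, s.X n ⟶ Z n)
    (hrq : ∀ n, r n ≫ q n = 𝟙 (Z n)) (hlen : ∀ n, Module.length A (Z n) ≤ D)
    (hne : ∀ n : G, (s.eta n).comp (Ext.mk₀ (q n)) (add_zero _) ≠ 0) : False := by
  classical
  letI instK : ∀ n, Module k (Z n) := fun n => modS k A (Z n)
  haveI instT : ∀ n, IsScalarTower k A (Z n) := fun n => towerS k A (Z n)
  haveI : Infinite G := hG.to_subtype
  have hbd : ∀ n, Module.finrank k (Z n) < D * Module.finrank k A + 1 := fun n =>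
    Nat.lt_succ_of_le (finrank_le_of_length k D (Z n) (hlen n))
  let f : G → Fin (D * Module.finrank k A + 1) := fun n => ⟨Module.finrank k (Z n), hbd n⟩
  obtain ⟨y, hy⟩ := Finite.exists_infinite_fiber f
  let K := f ⁻¹' {y}
  haveI hfin : ∀ n : K, Module.Finite A (Z n.1) := by
    intro n
    have hsurj : Function.Surjective (q n.1).hom := by
      intro z
      refine ⟨(r n.1).hom z, ?_⟩
      have := congr_arg (fun g => g.hom z) (hrq n.1)
      simpa using this
    exact Module.Finite.of_surjective _ hsurj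
  have hdim : ∀ n : K, Module.finrank k (Z n.1) = y := by
    intro n
    have h1 : f n.1 = y := n.2
    exact congrArg Fin.val h1
  have hrig : ∀ n : K, ∀ e : Ext (Z n.1) (Z n.1) 1, e = 0 := fun n =>
    ext_retract_self (r n.1) (q n.1) (hrq n.1) (s.rigid h₂ h₁ n.1)
  obtain ⟨F, hF⟩ := finite_iso_classes k (fun n : K => Z n.1) hfin y hdim hrig
  let v : K → ℕ := fun n => n.1.1
  have hv : Function.Injective v := fun a b h => Subtype.ext (Subtype.ext h)
  have hinf : (Set.range v).Infinite := Set.infinite_range_of_injective hv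
  obtain ⟨_, ⟨j, rfl⟩, hj⟩ := hinf.exists_gt (F.sup v + m)
  obtain ⟨i, hi, ⟨φ⟩⟩ := hF j
  have hil : v i ≤ F.sup v := Finset.le_sup hi
  have hfar : ∀ n, v i + m < n → ∀ e : Ext (s.X 0) (s.X (v i)) n, e = 0 := by
    intro n hn
    obtain ⟨c, rfl⟩ : ∃ c, n = c + 1 + v i := ⟨n - v i - 1, by omega⟩
    exact s.ext_far h₂ c (v i) (hm _ (by omega))
  have h1 : ∀ e : Ext (s.X 0) (Z i.1) (v j), e = 0 :=
    ext_retract_second (r i.1) (q i.1) (hrq i.1) (hfar _ (by omega))
  have h2 : ∀ e : Ext (s.X 0) (Z j.1) (v j), e = 0 :=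
    ext_retract_second (X := Z i.1) (ModuleCat.ofHom φ.symm.toLinearMap)
      (ModuleCat.ofHom φ.toLinearMap) (by ext x; simp) h1
  exact hne j.1 (h2 _)

/-- The main theorem of this file. -/
theorem bounded_syzygy (s : Syz A)
    (h₂ : ∀ i, 1 ≤ i → ∀ e : Ext (s.X 0) (ModuleCat.of A A) i, e = 0)
    (h₁ : ∀ e : Ext (s.X 0) (s.X 0) 1, e = 0) (m : ℕ)
    (hm : ∀ i, m < i → ∀ e : Ext (s.X 0) (s.X 0) i, e = 0) (D : ℕ)
    (hD : ∀ N, ∃ n, N ≤ n ∧ ∃ (r : ℕ) (Y : Fin r → ModuleCat.{u} A),
      (∀ j, Module.length A (Y j) ≤ D) ∧ Nonempty (s.X n ≃ₗ[A] ∀ j, Y j)) :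
    Module.Projective A (s.X 0) := by
  classical
  by_contra hnp
  let P : ℕ → Prop := fun n => ∃ (Z : ModuleCat.{u} A) (i : Z ⟶ s.X n) (q : s.X n ⟶ Z),
    i ≫ q = 𝟙 Z ∧ Module.length A Z ≤ D ∧ (s.eta n).comp (Ext.mk₀ q) (add_zero _) ≠ 0
  have hP : ∀ N, ∃ n ∈ {n | P n}, N < n := by
    intro N
    obtain ⟨n, hn, r, Y, hY, ⟨φ⟩⟩ := hD (N + 1)
    obtain ⟨j, i, q, hiq, hne⟩ := ext_component_ne_zero Y φ (s.eta n) (s.eta_ne_zero h₂ hnp n)
    exact ⟨n, ⟨Y j, i, q, hiq, hY j, hne⟩, by omega⟩
  have hG : {n | P n}.Infinite := Set.infinite_of_forall_exists_gt hP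
  choose Z i q hiq hlen hne using fun n : {n | P n} => n.2
  exact no_bounded_retracts k s h₂ h₁ m hm D _ hG Z i q hiq hlen hne

end Main

end Vale.Agent.Lib.P195
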