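import Vale.Agent.Lib.P195.Tri

/-!
Finitely many simple modules, the decomposition of `hlen S R P Y` along composition factors of
`Y`, and the linear algebra giving a contradiction from a triangular pairing.
-/

set_option linter.style.haveILetI false
set_option linter.unusedVariables false

namespace Vale.Agent.Lib.P195

universe u

section Simple

variable {R : Type u} [Ring R]

/-- The simple modules that admit a nonzero map from a module of finite length form a finite
list up to isomorphism. -/
lemma exists_list_of_finiteLength (A : Type u) [AddCommGroup A] [Module R A]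
    (h : IsFiniteLength R A) :
    ∃ l : List (ModuleCat.{u} R), ∀ (Q : Type u) [AddCommGroup Q] [Module R Q] [IsSimpleModule R Q]
      (f : A →ₗ[R] Q), f ≠ 0 → ∃ T ∈ l, Nonempty (Q ≃ₗ[R] T) := by
  induction h with
  | of_subsingleton =>
    refine ⟨[], ?_⟩
    intro Q _ _ _ f hf
    exact absurd (LinearMap.ext fun x => by rw [Subsingleton.elim x 0]; simp) hf
  | @of_simple_quotient A _ _ N _ _ ih =>
    obtain ⟨l, hl⟩ := ih
    refine ⟨ModuleCat.of R (A ⧸ N) :: l, ?_⟩
    intro Q _ _ _ f hf
    by_cases hfN : f ∘ₗ N.subtype = 0
    · -- f factors through the simple quotient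
      have hNf : N ≤ LinearMap.ker f := by
        intro x hx
        exact LinearMap.congr_fun hfN ⟨x, hx⟩
      let g : (A ⧸ N) →ₗ[R] Q := N.liftQ f hNf
      have hg : g ≠ 0 := by
        intro h0
        apply hf
        ext x
        have := LinearMap.congr_fun h0 (N.mkQ x)
        simpa [g] using this
      have hbij : Function.Bijective g := LinearMap.bijective_of_ne_zero hg
      exact ⟨_, List.mem_cons_self, ⟨(LinearEquiv.ofBijective g hbij).symm⟩⟩
    · obtain ⟨T, hT, hiso⟩ := hl Q _ hfN
      exact ⟨T, List.mem_cons_of_mem _ hT, hiso⟩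

/-- Over a left Artinian ring there is a finite list of modules containing every simple module
up to isomorphism. -/
lemma exists_simple_list [IsArtinianRing R] :
    ∃ l : List (ModuleCat.{u} R), ∀ (Q : Type u) [AddCommGroup Q] [Module R Q] [IsSimpleModule R Q],
      ∃ T ∈ l, Nonempty (Q ≃ₗ[R] T) := by
  have hfl : IsFiniteLength R R :=
    isFiniteLength_iff_isNoetherian_isArtinian.mpr ⟨inferInstance, inferInstance⟩
  obtain ⟨l, hl⟩ := exists_list_of_finiteLength R hfl
  refine ⟨l, ?_⟩
  intro Q _ _ _
  have : Nontrivial Q := IsSimpleModule.nontrivial R Q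
  obtain ⟨x, hx⟩ := exists_ne (0 : Q)
  refine hl Q (LinearMap.toSpanSingleton R Q x) ?_
  intro h0
  apply hx
  have := LinearMap.congr_fun h0 1
  simpa using this

end Simple

section Decomp

variable (S : Type*) [CommRing S] {R : Type u} [Ring R] [Algebra S R]
variable [IsArtinianRing S] [Module.Finite S R]

omit [IsArtinianRing S] [Module.Finite S R] in
lemma hlen_eq_zero_of_subsingleton (P Y : Type u) [AddCommGroup P] [Module R P] [AddCommGroup Y]
    [Module R Y] [Subsingleton Y] : hlen S R P Y = 0 := by
  letI := modS S R Y
  haveI := towerS S R Y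
  unfold hlen
  have : Subsingleton (P →ₗ[R] Y) := ⟨fun f g => by ext x; exact Subsingleton.elim _ _⟩
  rw [Module.length_eq_zero]
  rfl

/-- `hlen S R P Y` for projective `P` is a nonnegative integer combination, independent of `P`,
of the numbers `hlen S R P (T i)`. -/
lemma hlen_decomp {n : ℕ} (T : Fin n → ModuleCat.{u} R)
    (hT : ∀ (Q : Type u) [AddCommGroup Q] [Module R Q] [IsSimpleModule R Q],
      ∃ i, Nonempty (Q ≃ₗ[R] T i))
    (Y : Type u) [AddCommGroup Y] [Module R Y] (hY : IsFiniteLength R Y) :
    ∃ y : Fin n → ℕ, ∀ (P : Type u) [AddCommGroup P] [Module R P] [Module.Finite R P]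
      [Module.Projective R P], hlen S R P Y = ∑ i, y i * hlen S R P (T i) := by
  classical
  induction hY with
  | of_subsingleton =>
    refine ⟨0, ?_⟩
    intro P _ _ _ _
    simp [hlen_eq_zero_of_subsingleton]
  | @of_simple_quotient A _ _ N _ hN ih =>
    obtain ⟨y, hy⟩ := ih
    obtain ⟨j, ⟨e⟩⟩ := hT (A ⧸ N)
    refine ⟨y + Pi.single j 1, ?_⟩
    intro P _ _ _ _
    have hfl : IsFiniteLength R A := IsFiniteLength.of_simple_quotient hN
    obtain ⟨h1, h2⟩ := isFiniteLength_iff_isNoetherian_isArtinian.mp hfl
    have hadd := hlen_add_of_exact_post S (A := P) N.subtype N.mkQ N.injective_subtype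
      (Submodule.mkQ_surjective _) (LinearMap.exact_subtype_mkQ _)
    have heq : hlen S R P (A ⧸ N) = hlen S R P (T j) := by
      apply hlen_congr_post S e.toLinearMap
      constructor
      · intro f g hfg
        ext x
        exact e.injective (LinearMap.congr_fun hfg x)
      · intro g
        exact ⟨e.symm.toLinearMap ∘ₗ g, by ext; simp⟩
    rw [hadd, hy P, heq]
    simp only [Pi.add_apply, add_mul, Finset.sum_add_distrib]
    congr 1
    rw [Finset.sum_eq_single j]
    · simp
    · intro i _ hij
      simp [hij]
    · simp

end Decomp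

section LinAlg

/-- A triangular pairing with nonzero diagonal on more vectors than the dimension is impossible,
for vectors indexed by a finite set of natural numbers. -/
lemma no_triangular_finset {n : ℕ} (K : Finset ℕ) (hK : 2 * n < K.card) (τ : ℕ → Fin n → ℚ)
    (a b : ℕ → Fin n → ℚ)
    (hdiag : ∀ k ∈ K, (∑ ι, a k ι * τ k ι) - (∑ ι, b k ι * τ (k + 1) ι) ≠ 0)
    (hoff : ∀ k ∈ K, ∀ i ∈ K, k < i →
      (∑ ι, a k ι * τ i ι) - (∑ ι, b k ι * τ (i + 1) ι) = 0) : False := by
  classical
  let u : K → (Fin n → ℚ) × (Fin n → ℚ) := fun j => (τ j, τ (j + 1))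
  have hind : LinearIndependent ℚ u := by
    rw [Fintype.linearIndependent_iff]
    intro g hg
    have hg1 : ∀ ι, ∑ j : K, g j * τ j ι = 0 := by
      intro ι
      have := congr_fun (congr_arg Prod.fst hg) ι
      simpa [u, Prod.fst_sum, Finset.sum_apply] using this
    have hg2 : ∀ ι, ∑ j : K, g j * τ (j + 1) ι = 0 := by
      intro ι
      have := congr_fun (congr_arg Prod.snd hg) ι
      simpa [u, Prod.snd_sum, Finset.sum_apply] using this
    -- the pairing against `k`
    have hpair : ∀ k : ℕ, ∑ j : K, g j *
        ((∑ ι, a k ι * τ j ι) - (∑ ι, b k ι * τ (j + 1) ι)) = 0 := by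
      intro k
      have : ∑ j : K, g j * ((∑ ι, a k ι * τ j ι) - (∑ ι, b k ι * τ (j + 1) ι))
          = (∑ ι, a k ι * ∑ j : K, g j * τ j ι)
            - (∑ ι, b k ι * ∑ j : K, g j * τ (j + 1) ι) := by
        simp only [mul_sub, Finset.sum_sub_distrib, Finset.mul_sum]
        congr 1
        · rw [Finset.sum_comm]
          exact Finset.sum_congr rfl fun _ _ => Finset.sum_congr rfl fun _ _ => by ring
        · rw [Finset.sum_comm]
          exact Finset.sum_congr rfl fun _ _ => Finset.sum_congr rfl fun _ _ => by ring
      rw [this, Finset.sum_eq_zero (fun ι _ => by rw [hg1 ι, mul_zero]),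
        Finset.sum_eq_zero (fun ι _ => by rw [hg2 ι, mul_zero]), sub_zero]
    -- strong induction on the index
    have key : ∀ m : ℕ, ∀ i : K, i.val = m → g i = 0 := by
      intro m
      induction m using Nat.strong_induction_on with
      | _ m ih =>
        intro i hi
        have h := hpair i.val
        rw [Finset.sum_eq_single i] at h
        · have hd := hdiag i.val i.2
          exact (mul_eq_zero.mp h).resolve_right hd
        · intro j _ hji
          by_cases hlt : j.val < i.val
          · rw [ih j.val (by omega) j rfl, zero_mul]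
          · have hgt : i.val < j.val := by
              have : j.val ≠ i.val := fun h => hji (Subtype.ext h)
              omega
            have := hoff i.val i.2 j.val j.2 hgt
            rw [this, mul_zero]
        · simp
    intro i
    exact key i.val i rfl
  have hcard := hind.fintype_card_le_finrank
  simp only [Fintype.card_coe, Module.finrank_prod, Module.finrank_fin_fun] at hcard
  omega

end LinAlg

end Vale.Agent.Lib.P195
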