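import Vale.Agent.Lib.P195.Syz
import Vale.Agent.Lib.P195.Decomp

/-!
The triangular argument on a minimal resolution.
-/

set_option linter.style.haveILetI false
set_option linter.unusedVariables false

open CategoryTheory Abelian

namespace Vale.Agent.Lib.P195

universe u

variable (S : Type*) [CommRing S] {R : Type u} [Ring R] [Algebra S R]
variable [IsArtinianRing S] [Module.Finite S R]

omit S [CommRing S] [Algebra S R] [IsArtinianRing S] [Module.Finite S R] in
/-- The extension property along a step of the resolution. -/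
lemma Syz.extend (s : Syz R) (i : ℕ) (Y : ModuleCat.{u} R) (h : ∀ e : Ext (s.X i) Y 1, e = 0)
    (f : s.X (i + 1) →ₗ[R] Y) : ∃ g : s.P i →ₗ[R] Y, g ∘ₗ (s.ι i).hom = f := by
  obtain ⟨g, hg⟩ := extend_of_ext_vanish (S := s.sc i) (s.sexact i) Y h (ModuleCat.ofHom f)
  refine ⟨g.hom, ?_⟩
  have := congr_arg ModuleCat.Hom.hom hg
  simpa using this

include S in
/-- The core: let `K` be a set of more than `2 n` natural numbers, `n` the number of simple modules.
It is impossible that each `k ∈ K` has a test module `Y k` of Loewy length at most two such that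
`Ext¹` from the relevant syzygies into `Y k` vanishes and some homomorphism from the `k`-th syzygy
to `Y k` does not land in the radical. -/
theorem core_gen [IsArtinianRing R] {n : ℕ} (T : Fin n → ModuleCat.{u} R)
    (hT : ∀ (Q : Type u) [AddCommGroup Q] [Module R Q] [IsSimpleModule R Q],
      ∃ i, Nonempty (Q ≃ₗ[R] T i))
    (s : Syz R) (K : Finset ℕ) (hK : 2 * n < K.card)
    (Y : ℕ → ModuleCat.{u} R) (hYfin : ∀ k, Module.Finite R (Y k))
    (hJ : ∀ k ∈ K, ∀ a ∈ Ring.jacobson R, ∀ y : rad R (Y k), a • y = 0)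
    (hdiag : ∀ k ∈ K, (∀ e : Ext (s.X k) (Y k) 1, e = 0) ∧
      ∃ f : s.X k →ₗ[R] Y k, ¬ LinearMap.range f ≤ rad R (Y k))
    (hoff : ∀ k ∈ K, ∀ i ∈ K, k < i →
      (∀ e : Ext (s.X i) (Y k) 1, e = 0) ∧ (∀ e : Ext (s.X (i - 1)) (Y k) 1, e = 0)) :
    False := by
  classical
  have hflrad : ∀ k, IsFiniteLength R (rad R (Y k)) := fun k =>
    isFiniteLength_iff_isNoetherian_isArtinian.mpr ⟨inferInstance, inferInstance⟩
  have hflquot : ∀ k, IsFiniteLength R (Y k ⧸ rad R (Y k)) := fun k =>
    isFiniteLength_iff_isNoetherian_isArtinian.mpr ⟨inferInstance, inferInstance⟩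
  -- the vectors of the two targets
  choose b hb using fun k => hlen_decomp S T hT (rad R (Y k)) (hflrad k)
  choose a ha using fun k => hlen_decomp S T hT (Y k ⧸ rad R (Y k)) (hflquot k)
  let τ : ℕ → Fin n → ℚ := fun i ι => (hlen S R (s.P i) (T ι) : ℚ)
  -- the functional computes the difference of lengths
  have hW : ∀ k i, (∑ ι, (a k ι : ℚ) * τ i ι) - (∑ ι, (b k ι : ℚ) * τ (i + 1) ι)
      = (hlen S R (s.P i) (Y k ⧸ rad R (Y k)) : ℚ)
        - (hlen S R (s.P (i + 1)) (rad R (Y k)) : ℚ) := by
    intro k i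
    rw [ha k (s.P i), hb k (s.P (i + 1))]
    push_cast
    rfl
  -- the equation of one step
  have hstep : ∀ k i, k ∈ K → (∀ e : Ext (s.X i) (Y k) 1, e = 0) →
      hlen S R (s.P i) (rad R (Y k)) + hlen S R (s.P i) (Y k ⧸ rad R (Y k))
        = hlen S R (s.X i) (Y k) + hlen S R (s.P (i + 1)) (rad R (Y k)) := by
    intro k i hk hv
    exact hlen_step S (Y k) inferInstance (hJ k hk) (s.ι i).hom (s.π i).hom
      (s.ι_injective i) (s.π_surjective i) (s.exact_ι_π i) (s.minimal i)
      (fun f => s.extend i (Y k) hv f)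
      (s.π (i + 1)).hom (s.π_surjective (i + 1)) (s.ker_π_le (i + 1))
  refine no_triangular_finset K hK τ (fun k ι => (a k ι : ℚ)) (fun k ι => (b k ι : ℚ)) ?_ ?_
  · -- the diagonal
    intro k hk
    rw [hW]
    obtain ⟨hv, f, hf⟩ := hdiag k hk
    have hlt : hlen S R (s.P k) (rad R (Y k)) < hlen S R (s.X k) (Y k) := by
      rw [← hlen_cover S (s.π k).hom (s.π_surjective k) (s.ker_π_le k) _ (hJ k hk)]
      exact hlen_rad_lt S (Y k) inferInstance f hf
    have heq := hstep k k hk hv
    have : (hlen S R (s.P (k + 1)) (rad R (Y k)) : ℚ)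
        < (hlen S R (s.P k) (Y k ⧸ rad R (Y k)) : ℚ) := by
      exact_mod_cast (by omega : hlen S R (s.P (k + 1)) (rad R (Y k))
        < hlen S R (s.P k) (Y k ⧸ rad R (Y k)))
    exact (sub_pos.mpr this).ne'
  · -- off the diagonal
    intro k hk i hi hki
    rw [hW]
    obtain ⟨hv, hv'⟩ := hoff k hk i hi hki
    have heq := hstep k i hk hv
    obtain ⟨i', rfl⟩ : ∃ i', i = i' + 1 := ⟨i - 1, by omega⟩
    have hsyz : hlen S R (s.X (i' + 1)) (Y k) = hlen S R (s.P (i' + 1)) (rad R (Y k)) :=
      hlen_syz_eq S (Y k) (hJ k hk) (s.ι i').hom (s.minimal i')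
        (fun f => s.extend i' (Y k) hv' f)
        (s.π (i' + 1)).hom (s.π_surjective (i' + 1)) (s.ker_π_le (i' + 1))
    have : hlen S R (s.P (i' + 1)) (Y k ⧸ rad R (Y k))
        = hlen S R (s.P (i' + 1 + 1)) (rad R (Y k)) := by omega
    rw [this, sub_self]

omit S [CommRing S] [Algebra S R] [IsArtinianRing S] [Module.Finite S R] in
/-- A finite projective syzygy must vanish, given `Ext¹(X i, R) = 0`. -/
lemma Syz.subsingleton_of_projective (s : Syz R) (i : ℕ)
    [Module.Projective R (s.X (i + 1))]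
    (h : ∀ e : Ext (s.X i) (ModuleCat.of R R) 1, e = 0) : Subsingleton (s.X (i + 1)) := by
  have hvan : ∀ e : Ext (s.X i) (s.X (i + 1)) 1, e = 0 := fun e => ext_proj_vanish _ h e
  obtain ⟨r, hr⟩ := s.extend i (s.X (i + 1)) hvan LinearMap.id
  have htop : (⊤ : Submodule R (s.X (i + 1))) ≤ rad R (s.X (i + 1)) := by
    intro x _
    have : r ((s.ι i).hom x) = x := LinearMap.congr_fun hr x
    rw [← this]
    exact map_mem_rad r (s.minimal i (LinearMap.mem_range_self _ x))
  have hbot : (⊤ : Submodule R (s.X (i + 1))) = ⊥ :=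
    Submodule.FG.eq_bot_of_le_jacobson_smul Module.Finite.fg_top htop
  exact (Submodule.subsingleton_iff R).mp (subsingleton_of_bot_eq_top hbot.symm)

omit S [CommRing S] [Algebra S R] [IsArtinianRing S] [Module.Finite S R] in
/-- If the next syzygy vanishes then the module is projective. -/
lemma Syz.projective_of_subsingleton (s : Syz R) (i : ℕ) (h : Subsingleton (s.X (i + 1))) :
    Module.Projective R (s.X i) := by
  have hinj : Function.Injective (s.π i).hom := by
    rw [injective_iff_map_eq_zero]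
    intro x hx
    obtain ⟨y, rfl⟩ := (s.exact_ι_π i x).mp hx
    rw [Subsingleton.elim y 0, map_zero]
  exact Module.Projective.of_equiv (LinearEquiv.ofBijective (s.π i).hom ⟨hinj, s.π_surjective i⟩)

omit S [CommRing S] [Algebra S R] [IsArtinianRing S] [Module.Finite S R] in
/-- The descent from a vanishing syzygy to projectivity of the module, assuming the vanishing of
`Ext(M, R)` in the relevant range. -/
lemma Syz.projective_of_vanishing (s : Syz R) (B : ℕ)
    (hMR : ∀ a, 1 ≤ a → a ≤ B → ∀ e : Ext (s.X 0) (ModuleCat.of R R) a, e = 0)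
    (k : ℕ) (hk : k ≤ B) (h : Subsingleton (s.X (k + 1))) :
    Module.Projective R (s.X 0) := by
  induction k with
  | zero => exact s.projective_of_subsingleton 0 h
  | succ k ih =>
    apply ih (by omega)
    haveI := s.projective_of_subsingleton (k + 1) h
    refine s.subsingleton_of_projective k ?_
    intro e
    refine s.ext_first_iter _ k 0 ?_ e
    exact hMR _ (by omega) (by omega)

omit S [CommRing S] [Algebra S R] [IsArtinianRing S] [Module.Finite S R] in
/-- A vanishing syzygy of index `k` gives projectivity, in all cases. -/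
lemma Syz.projective_of_vanishing' (s : Syz R) (B : ℕ)
    (hMR : ∀ a, 1 ≤ a → a ≤ B → ∀ e : Ext (s.X 0) (ModuleCat.of R R) a, e = 0)
    (k : ℕ) (hk : k ≤ B + 1) (h : Subsingleton (s.X k)) :
    Module.Projective R (s.X 0) := by
  obtain _ | k := k
  · exact Module.Projective.of_free
  · exact s.projective_of_vanishing B hMR k (by omega) h

/-- Rad cube zero implies Loewy length at most two for syzygies. -/
lemma Syz.rad_rad_of_cube (s : Syz R)
    (hJ3 : ∀ a ∈ Ring.jacobson R, ∀ b ∈ Ring.jacobson R, ∀ c ∈ Ring.jacobson R, a * b * c = 0)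
    (k : ℕ) (a : R) (ha : a ∈ Ring.jacobson R) (y : rad R (s.X (k + 1))) : a • y = 0 := by
  obtain ⟨y, hy⟩ := y
  apply Subtype.ext
  change a • y = 0
  induction hy using Submodule.smul_induction_on' with
  | smul b hb x _ =>
    apply s.ι_injective k
    rw [map_zero, map_smul, map_smul]
    have hmem := s.minimal k (LinearMap.mem_range_self _ x)
    change (s.ι k).hom x ∈ rad R (s.P k) at hmem
    generalize (s.ι k).hom x = z at hmem
    induction hmem using Submodule.smul_induction_on' with
    | smul c hc w _ =>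
      rw [← mul_smul, ← mul_smul, hJ3 a ha b hb c hc, zero_smul]
    | add z₁ _ z₂ _ h1 h2 =>
      rw [smul_add, smul_add, h1, h2, add_zero]
  | add y₁ _ y₂ _ h1 h2 =>
    rw [smul_add, h1, h2, add_zero]

end Vale.Agent.Lib.P195
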