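import Mathlib

/-!
Existence of projective covers over a left Artinian ring, in the elementary form needed below:
every finite module `N` admits a surjection `π : P → N` from a finite projective module with
`ker π ≤ J • P`, where `J` is the Jacobson radical.
-/

namespace Vale.Agent.Lib.P195

universe u

variable {R : Type u} [Ring R]

/-- The quotient `A ⧸ J • A` is semisimple over a semiprimary ring. -/
lemma isSemisimpleModule_quot_rad [IsSemiprimaryRing R] (A : Type u) [AddCommGroup A] [Module R A] :
    IsSemisimpleModule R (A ⧸ (Ring.jacobson R • (⊤ : Submodule R A))) := by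
  set T := A ⧸ (Ring.jacobson R • (⊤ : Submodule R A))
  have h : Module.IsTorsionBySet R T (Ring.jacobson R) := by
    rw [Module.isTorsionBySet_quotient_iff]
    exact fun m i hi ↦ Submodule.smul_mem_smul hi trivial
  let _ := h.module
  exact (h.semilinearMap.isSemisimpleModule_iff_of_bijective Function.bijective_id).2 inferInstance

/-- Existence of projective covers over a left Artinian ring. -/
theorem exists_cover [IsArtinianRing R] (N : Type u) [AddCommGroup N] [Module R N]
    [Module.Finite R N] :
    ∃ (P : Type u) (_ : AddCommGroup P) (_ : Module R P) (_ : Module.Finite R P)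
      (_ : Module.Projective R P) (π : P →ₗ[R] N),
      Function.Surjective π ∧ LinearMap.ker π ≤ Ring.jacobson R • (⊤ : Submodule R P) := by
  classical
  -- the property of natural numbers to be minimized
  let p : ℕ → Prop := fun n =>
    ∃ (P : Type u) (_ : AddCommGroup P) (_ : Module R P) (_ : Module.Finite R P)
      (_ : Module.Projective R P) (π : P →ₗ[R] N),
      Function.Surjective π ∧ Module.length R P = n
  have hp : ∃ n, p n := by
    obtain ⟨m, f, hf⟩ := Module.Finite.exists_fin' R N
    have hne : Module.length R (Fin m → R) ≠ ⊤ := Module.length_ne_top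
    obtain ⟨n, hn⟩ := ENat.ne_top_iff_exists.mp hne
    exact ⟨n, Fin m → R, inferInstance, inferInstance, inferInstance, inferInstance, f, hf, hn.symm⟩
  obtain ⟨P, iA, iM, iF, iP, π, hπ, hlen⟩ := Nat.find_spec hp
  refine ⟨P, iA, iM, iF, iP, π, hπ, ?_⟩
  by_contra hK
  obtain ⟨x, hxK, hxJ⟩ := SetLike.not_le_iff_exists.mp hK
  -- work in the quotient by the radical
  set JP : Submodule R P := Ring.jacobson R • (⊤ : Submodule R P) with hJP
  have hss : IsSemisimpleModule R (P ⧸ JP) := isSemisimpleModule_quot_rad P
  have hxbar : JP.mkQ x ≠ 0 := by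
    simpa [Submodule.Quotient.mk_eq_zero] using hxJ
  -- a maximal submodule of the quotient missing the image of x
  have hjac : Module.jacobson R (P ⧸ JP) = ⊥ := IsSemisimpleModule.jacobson_eq_bot R _
  have : ∃ L : Submodule R (P ⧸ JP), IsCoatom L ∧ JP.mkQ x ∉ L := by
    by_contra hne
    push Not at hne
    apply hxbar
    have : JP.mkQ x ∈ Module.jacobson R (P ⧸ JP) := by
      rw [Module.jacobson, Submodule.mem_sInf]
      intro L hL
      exact hne L hL
    rw [hjac] at this
    simpa using this
  obtain ⟨Lbar, hLbar, hxL⟩ := this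
  -- the simple quotient and the map onto it
  have hsimple : IsSimpleModule R ((P ⧸ JP) ⧸ Lbar) := isSimpleModule_iff_isCoatom.mpr hLbar
  let φ : P →ₗ[R] ((P ⧸ JP) ⧸ Lbar) := Lbar.mkQ ∘ₗ JP.mkQ
  have hφx : φ x ≠ 0 := by
    simpa [φ, Submodule.Quotient.mk_eq_zero] using hxL
  let K : Submodule R P := LinearMap.ker π
  have hφK : φ ∘ₗ K.subtype ≠ 0 := by
    intro h
    apply hφx
    have := LinearMap.congr_fun h ⟨x, hxK⟩
    simpa using this
  have hφKsurj : Function.Surjective (φ ∘ₗ K.subtype) := LinearMap.surjective_of_ne_zero hφK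
  obtain ⟨h, hh⟩ := Module.projective_lifting_property (φ ∘ₗ K.subtype) φ hφKsurj
  let e : Module.End R P := K.subtype ∘ₗ h
  have hφe : ∀ y, φ (e y) = φ y := fun y => LinearMap.congr_fun hh y
  have hφem : ∀ (m : ℕ) (y : P), φ ((e ^ m) y) = φ y := by
    intro m
    induction m with
    | zero => intro y; simp
    | succ m ih =>
      intro y
      rw [pow_succ', Module.End.mul_apply, hφe, ih]
  have hπe : ∀ y, π (e y) = 0 := fun y => (h y).2
  -- Fitting decomposition
  obtain ⟨k, hk⟩ := Filter.eventually_atTop.mp (LinearMap.eventually_isCompl_ker_pow_range_pow e)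
  set m := max k 1 with hm
  have hcompl := hk m (le_max_left _ _)
  have hm1 : 1 ≤ m := le_max_right _ _
  have hπem : ∀ y, π ((e ^ m) y) = 0 := by
    intro y
    obtain ⟨m', hm'⟩ : ∃ m', m = m' + 1 := ⟨m - 1, by omega⟩
    rw [hm', pow_succ', Module.End.mul_apply, hπe]
  let Q : Submodule R P := LinearMap.ker (e ^ m)
  have hQtop : Q ≠ ⊤ := by
    intro hQ
    apply hφx
    have hx0 : (e ^ m) x = 0 := by
      have : x ∈ Q := by rw [hQ]; trivial
      exact this
    rw [← hφem m x, hx0, map_zero]
  have hQsurj : Function.Surjective (π ∘ₗ Q.subtype) := by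
    intro y
    obtain ⟨z, rfl⟩ := hπ y
    obtain ⟨q, r, hq, hr, rfl⟩ := Submodule.codisjoint_iff_exists_add_eq.mp hcompl.codisjoint z
    obtain ⟨w, rfl⟩ := hr
    exact ⟨⟨q, hq⟩, by simp [hπem]⟩
  have hQproj : Module.Projective R Q :=
    Module.Projective.of_split Q.subtype (Q.projectionOnto _ hcompl) (by
      ext y
      simp [Submodule.projectionOnto_apply_left])
  have hQfin : Module.Finite R Q := inferInstance
  have hQlen : Module.length R Q < Module.length R P := Submodule.length_lt hQtop
  have hne : Module.length R Q ≠ ⊤ := ne_top_of_lt hQlen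
  obtain ⟨n, hn⟩ := ENat.ne_top_iff_exists.mp hne
  have hlt : n < Nat.find hp := by
    rw [hlen, ← hn] at hQlen
    exact_mod_cast hQlen
  exact Nat.find_min hp hlt ⟨Q, inferInstance, inferInstance, hQfin, hQproj, π ∘ₗ Q.subtype, hQsurj, hn.symm⟩

end Vale.Agent.Lib.P195
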