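import Mathlib

/-!
Dimension shifting for `Ext` over `ModuleCat`, and the extension property given by the vanishing
of `Ext¹`.
-/

set_option linter.style.haveILetI false
set_option linter.unusedVariables false

open CategoryTheory Abelian

namespace Vale.Agent.Lib.P195

universe u

variable {R : Type u} [Ring R]

/-- Dimension shift in the first variable. -/
lemma ext_shift_first {S : ShortComplex (ModuleCat.{u} R)} (hS : S.ShortExact)
    [Projective S.X₂] (Y : ModuleCat.{u} R) (n : ℕ)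
    (h : ∀ e : Ext S.X₃ Y (n + 2), e = 0) (e : Ext S.X₁ Y (n + 1)) : e = 0 := by
  obtain ⟨x₂, rfl⟩ := Ext.contravariant_sequence_exact₁ hS Y e (n₁ := n + 2) (by omega) (h _)
  rw [Ext.eq_zero_of_projective x₂, Ext.comp_zero]

/-- Dimension shift in the second variable. -/
lemma ext_shift_second {S : ShortComplex (ModuleCat.{u} R)} (hS : S.ShortExact)
    (Z : ModuleCat.{u} R) (n : ℕ)
    (h3 : ∀ e : Ext Z S.X₃ n, e = 0) (h2 : ∀ e : Ext Z S.X₂ (n + 1), e = 0)
    (e : Ext Z S.X₁ (n + 1)) : e = 0 := by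
  obtain ⟨x₃, rfl⟩ := Ext.covariant_sequence_exact₁ Z hS e (h2 _) (rfl : n + 1 = n + 1)
  rw [h3 x₃, Ext.zero_comp]

/-- Vanishing of `Ext` into `R` gives vanishing of `Ext` into a finite free module. -/
lemma ext_free_vanish {Z : ModuleCat.{u} R} {n : ℕ} (m : ℕ)
    (h : ∀ e : Ext Z (ModuleCat.of R R) n, e = 0)
    (e : Ext Z (ModuleCat.of R (Fin m → R)) n) : e = 0 := by
  classical
  let F := ModuleCat.of R (Fin m → R)
  let pr : Fin m → (F ⟶ ModuleCat.of R R) := fun j => ModuleCat.ofHom (LinearMap.proj j)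
  let inj : Fin m → (ModuleCat.of R R ⟶ F) := fun j =>
    ModuleCat.ofHom (LinearMap.single R (fun _ : Fin m => R) j)
  have hid : (∑ j, pr j ≫ inj j) = 𝟙 F := by
    ext x i
    simp [pr, inj, F]
  have : e = e.comp (Ext.mk₀ (𝟙 F)) (add_zero n) := (Ext.comp_mk₀_id e).symm
  rw [this, ← hid, Ext.mk₀_sum, Ext.comp_sum]
  refine Finset.sum_eq_zero fun j _ => ?_
  rw [← Ext.mk₀_comp_mk₀, ← Ext.comp_assoc_of_third_deg_zero,
    h (e.comp (Ext.mk₀ (pr j)) (add_zero n)), Ext.zero_comp]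

/-- Vanishing of `Ext` into `R` gives vanishing of `Ext` into a finite projective module. -/
lemma ext_proj_vanish {Z : ModuleCat.{u} R} {n : ℕ} (P : ModuleCat.{u} R)
    [Module.Finite R P] [Module.Projective R P]
    (h : ∀ e : Ext Z (ModuleCat.of R R) n, e = 0) (e : Ext Z P n) : e = 0 := by
  obtain ⟨m, f, hf⟩ := Module.Finite.exists_fin' R P
  obtain ⟨s, hs⟩ := Module.projective_lifting_property f LinearMap.id hf
  let F := ModuleCat.of R (Fin m → R)
  let f' : F ⟶ P := ModuleCat.ofHom f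
  let s' : P ⟶ F := ModuleCat.ofHom s
  have hid : s' ≫ f' = 𝟙 P := by
    ext x
    exact LinearMap.congr_fun hs x
  have : e = e.comp (Ext.mk₀ (𝟙 P)) (add_zero n) := (Ext.comp_mk₀_id e).symm
  rw [this, ← hid, ← Ext.mk₀_comp_mk₀, ← Ext.comp_assoc_of_third_deg_zero,
    ext_free_vanish m h (e.comp (Ext.mk₀ s') (add_zero n)), Ext.zero_comp]

/-- The extension property: if `Ext¹(X₃, Y)` vanishes, every map from `X₁` to `Y` extends to
`X₂`. -/
lemma extend_of_ext_vanish {S : ShortComplex (ModuleCat.{u} R)} (hS : S.ShortExact)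
    (Y : ModuleCat.{u} R) (h : ∀ e : Ext S.X₃ Y 1, e = 0) (f : S.X₁ ⟶ Y) :
    ∃ g : S.X₂ ⟶ Y, S.f ≫ g = f := by
  obtain ⟨x₂, hx₂⟩ := Ext.contravariant_sequence_exact₁ hS Y (Ext.mk₀ f) (n₁ := 1) (by omega) (h _)
  obtain ⟨g, rfl⟩ := (Ext.mk₀_bijective _ _).2 x₂
  refine ⟨g, ?_⟩
  apply (Ext.mk₀_bijective _ _).1
  rw [← Ext.mk₀_comp_mk₀]
  exact hx₂

end Vale.Agent.Lib.P195
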