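import Vale.Agent.Lib.P195.Core

/-!
The Auslander-Reiten condition over Artin algebras with radical cube zero, and more generally for
modules having many syzygies of Loewy length at most two.
-/

set_option linter.style.haveILetI false
set_option linter.unusedVariables false

open CategoryTheory Abelian

namespace Vale.Agent.Lib.P195

universe u v

/-- An algebra module-finite over a commutative Artinian ring is left Artinian. -/
lemma isArtinianRing_of_finite (S : Type v) (R : Type u) [CommRing S] [IsArtinianRing S] [Ring R]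
    [Algebra S R] [Module.Finite S R] : IsArtinianRing R := by
  have : IsArtinian S R := inferInstance
  exact isArtinian_of_tower S this

/-- The general statement: let `K` be a set of more than `2 n` indices such that the syzygies
`X k`, `k ∈ K`, have Loewy length at most two; if `Ext¹(M, M)` and the groups `Ext^d(M, M)` vanish
for `d` and `d - 1` running over the differences of elements of `K`, and `Ext^a(M, R)` vanishes in a
sufficient range, then `M` is projective. -/
theorem ar_general {S : Type v} {R : Type u} [CommRing S] [IsArtinianRing S] [Ring R]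
    [Algebra S R] [Module.Finite S R]
    {n : ℕ} (T : Fin n → ModuleCat.{u} R)
    (hT : ∀ Q : ModuleCat.{u} R, IsSimpleModule R Q → ∃ i, Nonempty (Q ≅ T i))
    (s : Syz R) (K : Finset ℕ) (hK : 2 * n < K.card)
    (hJ : ∀ k ∈ K, ∀ a ∈ Ring.jacobson R, ∀ b ∈ Ring.jacobson R, ∀ x : s.X k, a • b • x = 0)
    (B : ℕ) (hKB : ∀ k ∈ K, k + 1 ≤ B)
    (hMR : ∀ a, 1 ≤ a → a ≤ B → ∀ e : Ext (s.X 0) (ModuleCat.of R R) a, e = 0)
    (hM1 : ∀ e : Ext (s.X 0) (s.X 0) 1, e = 0)
    (hMM : ∀ k ∈ K, ∀ i ∈ K, k < i →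
      (∀ e : Ext (s.X 0) (s.X 0) (i - k), e = 0) ∧ (∀ e : Ext (s.X 0) (s.X 0) (i - k + 1), e = 0)) :
    Module.Projective R (s.X 0) := by
  haveI := isArtinianRing_of_finite S R
  have hT' : ∀ (Q : Type u) [AddCommGroup Q] [Module R Q] [IsSimpleModule R Q],
      ∃ i, Nonempty (Q ≃ₗ[R] T i) := by
    intro Q _ _ hQ
    obtain ⟨i, ⟨e⟩⟩ := hT (ModuleCat.of R Q) hQ
    exact ⟨i, ⟨e.toLinearEquiv⟩⟩
  by_contra hproj
  -- the syzygies in the index set do not vanish
  have hnz : ∀ k ∈ K, Nontrivial (s.X k) := by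
    intro k hk
    by_contra hnt
    have hsub : Subsingleton (s.X k) := not_nontrivial_iff_subsingleton.mp hnt
    have := hKB k hk
    exact hproj (s.projective_of_vanishing' B hMR k (by omega) hsub)
  have hJ' : ∀ k ∈ K, ∀ a ∈ Ring.jacobson R, ∀ y : rad R (s.X k), a • y = 0 := by
    intro k hk a ha y
    obtain ⟨y, hy⟩ := y
    apply Subtype.ext
    change a • y = 0
    induction hy using Submodule.smul_induction_on' with
    | smul b hb x _ => exact hJ k hk a ha b hb x
    | add y₁ _ y₂ _ h1 h2 => rw [smul_add, h1, h2, add_zero]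
  refine core_gen S T hT' s K hK s.X s.finX hJ' ?_ ?_
  · intro k hk
    refine ⟨?_, LinearMap.id, ?_⟩
    · intro e
      exact s.ext_tri_gen 0 0 hM1 B hMR k (by have := hKB k hk; omega) e
    · intro h
      have hnzk := hnz k hk
      have htop : (⊤ : Submodule R (s.X k)) ≤ rad R (s.X k) := by
        intro x _
        exact h (LinearMap.mem_range_self _ x)
      have hbot : (⊤ : Submodule R (s.X k)) = ⊥ :=
        Submodule.FG.eq_bot_of_le_jacobson_smul Module.Finite.fg_top htop
      exact top_ne_bot hbot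
  · intro k hk i hi hki
    obtain ⟨d, rfl⟩ : ∃ d, i = k + (d + 1) := ⟨i - k - 1, by omega⟩
    obtain ⟨h1, h2⟩ := hMM k hk (k + (d + 1)) hi hki
    have hd1 : k + (d + 1) - k = d + 1 := by omega
    rw [hd1] at h1 h2
    have hB := hKB _ hi
    refine ⟨?_, ?_⟩
    · intro e
      refine s.ext_tri_gen (d + 1) 0 ?_ B hMR k (by omega) e
      intro e'
      have h3 : 0 + 1 + (d + 1) = d + 1 + 1 := by omega
      revert e'
      rw [h3]
      exact h2
    · have h4 : k + (d + 1) - 1 = k + d := by omega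
      rw [h4]
      intro e
      refine s.ext_tri_gen d 0 ?_ B hMR k (by omega) e
      intro e'
      have h3 : 0 + 1 + d = d + 1 := by omega
      revert e'
      rw [h3]
      exact h1

/-- Over an algebra with radical cube zero, the syzygies have Loewy length at most two. -/
lemma Syz.loewy_two {R : Type u} [Ring R] (s : Syz R)
    (hJ : ∀ a ∈ Ring.jacobson R, ∀ b ∈ Ring.jacobson R, ∀ c ∈ Ring.jacobson R, a * b * c = 0)
    (k : ℕ) (hk : 1 ≤ k) (a : R) (ha : a ∈ Ring.jacobson R) (b : R) (hb : b ∈ Ring.jacobson R)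
    (x : s.X k) : a • b • x = 0 := by
  obtain ⟨k', rfl⟩ : ∃ k', k = k' + 1 := ⟨k - 1, by omega⟩
  have := s.rad_rad_of_cube hJ k' a ha ⟨b • x, Submodule.smul_mem_smul hb trivial⟩
  exact congr_arg Subtype.val this

/-- Finite range version over algebras with radical cube zero: `T` lists the simple modules up to
isomorphism. -/
theorem ar_cube_zero_range {S : Type v} {R : Type u} [CommRing S] [IsArtinianRing S] [Ring R]
    [Algebra S R] [Module.Finite S R]
    (hJ : ∀ a ∈ Ring.jacobson R, ∀ b ∈ Ring.jacobson R, ∀ c ∈ Ring.jacobson R, a * b * c = 0)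
    {n : ℕ} (T : Fin n → ModuleCat.{u} R)
    (hT : ∀ Q : ModuleCat.{u} R, IsSimpleModule R Q → ∃ i, Nonempty (Q ≅ T i))
    (M : ModuleCat.{u} R) [Module.Finite R M]
    (h₁ : ∀ i : ℕ, 1 ≤ i → i ≤ 2 * n + 2 → ∀ e : Ext M M i, e = 0)
    (h₂ : ∀ i : ℕ, 1 ≤ i → i ≤ 2 * n + 2 → ∀ e : Ext M (ModuleCat.of R R) i, e = 0) :
    Module.Projective R M := by
  haveI := isArtinianRing_of_finite S R
  obtain ⟨s, rfl⟩ := exists_syz M
  refine ar_general (S := S) T hT s (Finset.Icc 1 (2 * n + 1)) (by simp) ?_ (2 * n + 2) ?_ h₂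
    (h₁ 1 le_rfl (by omega)) ?_
  · intro k hk a ha b hb x
    exact s.loewy_two hJ k (Finset.mem_Icc.mp hk).1 a ha b hb x
  · intro k hk
    have := Finset.mem_Icc.mp hk
    omega
  · intro k hk i hi hki
    have h1 := Finset.mem_Icc.mp hk
    have h2 := Finset.mem_Icc.mp hi
    exact ⟨h₁ _ (by omega) (by omega), h₁ _ (by omega) (by omega)⟩

/-- Every Artin algebra has a finite list of simple modules. -/
lemma exists_simple_fin (R : Type u) [Ring R] [IsArtinianRing R] :
    ∃ (n : ℕ) (T : Fin n → ModuleCat.{u} R),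
      ∀ Q : ModuleCat.{u} R, IsSimpleModule R Q → ∃ i, Nonempty (Q ≅ T i) := by
  obtain ⟨l, hl⟩ := exists_simple_list (R := R)
  refine ⟨l.length, fun i => l.get i, ?_⟩
  intro Q hQ
  obtain ⟨T, hT, ⟨e⟩⟩ := hl Q
  obtain ⟨i, rfl⟩ := List.get_of_mem hT
  exact ⟨i, ⟨e.toModuleIso⟩⟩

/-- The Auslander-Reiten condition forces projectivity over an Artin algebra with radical cube
zero. -/
theorem ar_cube_zero {S : Type v} {R : Type u} [CommRing S] [IsArtinianRing S] [Ring R]
    [Algebra S R] [Module.Finite S R]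
    (hJ : ∀ a ∈ Ring.jacobson R, ∀ b ∈ Ring.jacobson R, ∀ c ∈ Ring.jacobson R, a * b * c = 0)
    (M : ModuleCat.{u} R) [Module.Finite R M]
    (h₁ : ∀ i : ℕ, 1 ≤ i → ∀ e : Ext M M i, e = 0)
    (h₂ : ∀ i : ℕ, 1 ≤ i → ∀ e : Ext M (ModuleCat.of R R) i, e = 0) :
    Module.Projective R M := by
  haveI := isArtinianRing_of_finite S R
  obtain ⟨n, T, hT⟩ := exists_simple_fin R
  exact ar_cube_zero_range (S := S) hJ T hT M (fun i hi _ => h₁ i hi) (fun i hi _ => h₂ i hi)

/-- Over an Artin algebra with radical cube zero, a module `M` with `Ext^i(M, R) = 0` for all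
`i ≥ 1`, with `Ext¹(M, M) = 0` and with `Ext^i(M, M) = 0` for all large `i` is projective. -/
theorem ar_cube_zero_eventual {S : Type v} {R : Type u} [CommRing S] [IsArtinianRing S] [Ring R]
    [Algebra S R] [Module.Finite S R]
    (hJ : ∀ a ∈ Ring.jacobson R, ∀ b ∈ Ring.jacobson R, ∀ c ∈ Ring.jacobson R, a * b * c = 0)
    (M : ModuleCat.{u} R) [Module.Finite R M]
    (h₂ : ∀ i : ℕ, 1 ≤ i → ∀ e : Ext M (ModuleCat.of R R) i, e = 0)
    (h₁ : ∀ e : Ext M M 1, e = 0)
    (m : ℕ) (hm : ∀ i : ℕ, m < i → ∀ e : Ext M M i, e = 0) :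
    Module.Projective R M := by
  haveI := isArtinianRing_of_finite S R
  obtain ⟨n, T, hT⟩ := exists_simple_fin R
  obtain ⟨s, rfl⟩ := exists_syz M
  -- the index set: an arithmetic progression of step `m + 1`
  let f : ℕ → ℕ := fun j => 1 + j * (m + 1)
  have hf : Function.Injective f := by
    intro a b hab
    simp only [f, add_right_inj] at hab
    exact Nat.eq_of_mul_eq_mul_right (by omega) hab
  let K : Finset ℕ := (Finset.range (2 * n + 1)).image f
  have hcard : K.card = 2 * n + 1 := by
    rw [Finset.card_image_of_injective _ hf, Finset.card_range]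
  refine ar_general (S := S) T hT s K (by omega) ?_ (K.sup id + 1) ?_
    (fun a ha _ => h₂ a ha) h₁ ?_
  · intro k hk a ha b hb x
    obtain ⟨j, _, rfl⟩ := Finset.mem_image.mp hk
    exact s.loewy_two hJ (f j) (by simp only [f]; omega) a ha b hb x
  · intro k hk
    have := Finset.le_sup (f := id) hk
    simpa using this
  · intro k hk i hi hki
    obtain ⟨j, _, rfl⟩ := Finset.mem_image.mp hk
    obtain ⟨j', _, rfl⟩ := Finset.mem_image.mp hi
    have hjj : j < j' := by
      by_contra hcon
      have : j' * (m + 1) ≤ j * (m + 1) := Nat.mul_le_mul_right _ (by omega)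
      simp only [f] at hki
      omega
    have hdiff : m + 1 ≤ f j' - f j := by
      have : (j + 1) * (m + 1) ≤ j' * (m + 1) := Nat.mul_le_mul_right _ hjj
      simp only [f]
      rw [Nat.add_mul] at this
      omega
    exact ⟨hm _ (by omega), hm _ (by omega)⟩

end Vale.Agent.Lib.P195
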