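import Mathlib

/-!
Matrices with polynomial entries: lower semicontinuity of the rank in an elementary polynomial
form, sections of the kernel through a given vector, and a Noetherian selection lemma.
-/

set_option linter.unusedVariables false

open Matrix Module

namespace Vale.Agent.Lib.P195

section Minor

variable {k : Type*} [Field k] {m n : Type*} [Fintype m] [Fintype n]

/-- Independent columns spanning the column space. -/
lemma exists_cols (B : Matrix m n k) :
    ∃ J : Fin B.rank → n, LinearIndependent k (B.submatrix id J).col := by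
  classical
  obtain ⟨f, hf, -, hli⟩ := Submodule.exists_fun_fin_finrank_span_eq k (Set.range B.col)
  have hr : Module.finrank k (Submodule.span k (Set.range B.col)) = B.rank :=
    (rank_eq_finrank_span_cols B).symm
  revert f
  rw [hr]
  intro f hf hli
  choose J hJ using hf
  refine ⟨J, ?_⟩
  have : (B.submatrix id J).col = f := by
    funext i
    rw [← hJ i]
    rfl
  rw [this]
  exact hli

/-- An invertible minor of size the rank. -/
lemma exists_minor [DecidableEq m] [DecidableEq n] (B : Matrix m n k) :
    ∃ (I : Fin B.rank → m) (J : Fin B.rank → n), (B.submatrix I J).det ≠ 0 := by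
  classical
  obtain ⟨J, hJ⟩ := exists_cols B
  set C : Matrix m (Fin B.rank) k := B.submatrix id J with hC
  have hCT : C.transpose.rank = B.rank := by
    have : C.transpose.row = C.col := rfl
    have h := LinearIndependent.rank_matrix (M := C.transpose) (by rw [this]; exact hJ)
    simpa using h
  obtain ⟨I, hI⟩ := exists_cols C.transpose
  revert I
  rw [hCT]
  intro I hI
  refine ⟨I, J, ?_⟩
  have hu : IsUnit (C.transpose.submatrix id I) := Matrix.linearIndependent_cols_iff_isUnit.mp hI
  have hdet : (C.transpose.submatrix id I).det ≠ 0 :=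
    ((Matrix.isUnit_iff_isUnit_det _).mp hu).ne_zero
  have htr : (C.transpose.submatrix id I) = (B.submatrix I J).transpose := by
    ext a b
    rfl
  rw [htr, Matrix.det_transpose] at hdet
  exact hdet

end Minor

section Poly

variable {k : Type*} [Field k] {σ : Type*} {m n : Type*} [Fintype m] [Fintype n]
  [DecidableEq m] [DecidableEq n]

/-- A polynomial matrix evaluated at a point. -/
noncomputable abbrev evalMat (p : σ → k) {m' n' : Type*} (Δ : Matrix m' n' (MvPolynomial σ k)) :
    Matrix m' n' k :=
  Δ.map (MvPolynomial.eval p)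

lemma eval_det {r : ℕ} (p : σ → k) (N : Matrix (Fin r) (Fin r) (MvPolynomial σ k)) :
    MvPolynomial.eval p N.det = (evalMat p N).det := by
  rw [RingHom.map_det]
  rfl

/-- Given a polynomial matrix, a point `x` and a kernel vector `v` at `x`, there is a polynomial `h`
not vanishing at `x` and a polynomial vector `vh` equal to `h(x) v` at `x`, such that wherever `h`
does not vanish the kernel dimension is at most the one at `x`, and `vh` lies in the kernel as soon
as the kernel dimension is at least the one at `x`. -/
theorem section_exists (Δ : Matrix m n (MvPolynomial σ k)) (x : σ → k) (v : n → k)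
    (hv : (evalMat x Δ) *ᵥ v = 0) :
    ∃ (h : MvPolynomial σ k) (vh : n → MvPolynomial σ k),
      MvPolynomial.eval x h ≠ 0 ∧
      (∀ c, MvPolynomial.eval x (vh c) = MvPolynomial.eval x h * v c) ∧
      (∀ y : σ → k, MvPolynomial.eval y h ≠ 0 →
        Module.finrank k (LinearMap.ker (evalMat y Δ).mulVecLin) ≤
          Module.finrank k (LinearMap.ker (evalMat x Δ).mulVecLin)) ∧
      (∀ y : σ → k, MvPolynomial.eval y h ≠ 0 →
        Module.finrank k (LinearMap.ker (evalMat x Δ).mulVecLin) ≤
          Module.finrank k (LinearMap.ker (evalMat y Δ).mulVecLin) →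
        (evalMat y Δ) *ᵥ (fun c => MvPolynomial.eval y (vh c)) = 0) := by
  classical
  set B := evalMat x Δ with hB
  obtain ⟨r, hr, I, J, hdet⟩ : ∃ r, r = B.rank ∧ ∃ (I : Fin r → m) (J : Fin r → n),
      (B.submatrix I J).det ≠ 0 := ⟨_, rfl, exists_minor B⟩
  let N : Matrix (Fin r) (Fin r) (MvPolynomial σ k) := Δ.submatrix I J
  let h : MvPolynomial σ k := N.det
  let vC : n → MvPolynomial σ k := fun c => MvPolynomial.C (v c)
  let R0 : Matrix (Fin r) n (MvPolynomial σ k) := Δ.submatrix I id
  let w : Fin r → MvPolynomial σ k := R0 *ᵥ vC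
  let u : Fin r → MvPolynomial σ k := N.adjugate *ᵥ w
  let S : Matrix n (Fin r) (MvPolynomial σ k) := Matrix.of fun c t => if J t = c then 1 else 0
  let vh : n → MvPolynomial σ k := h • vC - S *ᵥ u
  have hR0S : R0 * S = N := by
    ext a t
    simp only [R0, S, N, Matrix.mul_apply, Matrix.submatrix_apply, id, Matrix.of_apply]
    simp [Finset.sum_ite_eq]
  have hkey : R0 *ᵥ vh = 0 := by
    simp only [vh]
    rw [Matrix.mulVec_sub, Matrix.mulVec_smul, Matrix.mulVec_mulVec, hR0S]
    simp only [u]
    rw [Matrix.mulVec_mulVec, Matrix.mul_adjugate, Matrix.smul_mulVec, Matrix.one_mulVec]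
    simp [w, h]
  -- evaluation of the key identity
  have hkeyeval : ∀ y : σ → k, (evalMat y R0) *ᵥ (fun c => MvPolynomial.eval y (vh c)) = 0 := by
    intro y
    have := congrArg (fun z : Fin r → MvPolynomial σ k => (fun i => MvPolynomial.eval y (z i))) hkey
    funext a
    have h2 := congrFun this a
    simp only [Pi.zero_apply, map_zero] at h2
    rw [RingHom.map_mulVec] at h2
    exact h2
  have hhx : MvPolynomial.eval x h ≠ 0 := by
    simp only [h]
    rw [eval_det]
    have hN : evalMat x N = B.submatrix I J := by
      ext a b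
      rfl
    rw [hN]
    exact hdet
  -- values at `x`
  have hwx : ∀ a, MvPolynomial.eval x (w a) = 0 := by
    intro a
    simp only [w]
    rw [RingHom.map_mulVec]
    have := congrFun hv (I a)
    simpa [vC, R0, Matrix.mulVec, dotProduct, B] using this
  have hux : ∀ a, MvPolynomial.eval x (u a) = 0 := by
    intro a
    simp only [u]
    rw [RingHom.map_mulVec]
    simp [dotProduct, Matrix.mulVec, hwx, -Matrix.map_apply]
  have hvhx : ∀ c, MvPolynomial.eval x (vh c) = MvPolynomial.eval x h * v c := by
    intro c
    simp only [vh, Pi.sub_apply, Pi.smul_apply, smul_eq_mul, map_sub, map_mul]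
    rw [RingHom.map_mulVec]
    simp [vC, dotProduct, Matrix.mulVec, hux, -Matrix.map_apply]
  -- the rank count at `x`
  have hcardx : Module.finrank k (LinearMap.ker B.mulVecLin) + r = Fintype.card n := by
    have := LinearMap.finrank_range_add_finrank_ker B.mulVecLin
    simp only [Module.finrank_fintype_fun_eq_card] at this
    have h3 : Module.finrank k (LinearMap.range B.mulVecLin) = r := hr.symm
    omega
  -- at a point where the minor does not vanish
  have hgen : ∀ y : σ → k, MvPolynomial.eval y h ≠ 0 →
      ∃ P : (n → k) →ₗ[k] (Fin r → k),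
        LinearMap.ker (evalMat y Δ).mulVecLin ≤ LinearMap.ker P ∧
        Module.finrank k (LinearMap.ker P) + r = Fintype.card n ∧
        P (fun c => MvPolynomial.eval y (vh c)) = 0 := by
    intro y hy
    let P : (n → k) →ₗ[k] (Fin r → k) := (evalMat y R0).mulVecLin
    have hNy : (evalMat y N).det ≠ 0 := by
      have := hy
      simp only [h] at this
      rwa [eval_det] at this
    have hsurj : Function.Surjective P := by
      intro z
      let Sy : Matrix n (Fin r) k := Matrix.of fun c t => if J t = c then 1 else 0
      have hPS : evalMat y R0 * Sy = evalMat y N := by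
        ext a t
        simp [Matrix.mul_apply, Sy, R0, N, Finset.sum_ite_eq]
      refine ⟨Sy *ᵥ ((evalMat y N)⁻¹ *ᵥ z), ?_⟩
      change (evalMat y R0) *ᵥ (Sy *ᵥ ((evalMat y N)⁻¹ *ᵥ z)) = z
      rw [Matrix.mulVec_mulVec, hPS, Matrix.mulVec_mulVec,
        Matrix.mul_nonsing_inv _ (isUnit_iff_ne_zero.mpr hNy), Matrix.one_mulVec]
    refine ⟨P, ?_, ?_, hkeyeval y⟩
    · intro a ha
      have ha' : (evalMat y Δ) *ᵥ a = 0 := ha
      change (evalMat y R0) *ᵥ a = 0
      funext t
      have := congrFun ha' (I t)
      simpa [R0, Matrix.mulVec, dotProduct] using this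
    · have h4 := LinearMap.finrank_range_add_finrank_ker P
      rw [LinearMap.range_eq_top.mpr hsurj, finrank_top] at h4
      simp only [Module.finrank_fintype_fun_eq_card, Fintype.card_fin] at h4
      omega
  refine ⟨h, vh, hhx, hvhx, ?_, ?_⟩
  · intro y hy
    obtain ⟨P, hle, hP, -⟩ := hgen y hy
    have := Submodule.finrank_mono hle
    omega
  · intro y hy hge
    obtain ⟨P, hle, hP, hPv⟩ := hgen y hy
    have heq : LinearMap.ker (evalMat y Δ).mulVecLin = LinearMap.ker P :=
      Submodule.eq_of_le_of_finrank_le hle (by omega)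
    have : (fun c => MvPolynomial.eval y (vh c)) ∈ LinearMap.ker (evalMat y Δ).mulVecLin := by
      rw [heq]
      exact hPv
    exact this

end Poly

section Noeth

variable {k : Type*} [Field k] {σ : Type*} [Finite σ]

/-- Noetherian selection: given points and polynomials not vanishing at them, finitely many of
the polynomials suffice: every point has a polynomial from the finite list not vanishing at it. -/
theorem noeth_pick {K : Type*} (x : K → σ → k) (g : K → MvPolynomial σ k)
    (hg : ∀ j, MvPolynomial.eval (x j) (g j) ≠ 0) :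
    ∃ F : Finset K, ∀ j, ∃ i ∈ F, MvPolynomial.eval (x j) (g i) ≠ 0 := by
  classical
  have hfg : (Ideal.span (Set.range g)).FG := IsNoetherian.noetherian _
  obtain ⟨s, hs, hspan⟩ := (Submodule.fg_span_iff_fg_span_finset_subset (Set.range g)).mp hfg
  have hch : ∀ q ∈ s, ∃ i, g i = q := fun q hq => hs hq
  choose f hf using hch
  refine ⟨s.attach.image (fun q => f q.1 q.2), fun j => ?_⟩
  by_contra hcon
  push Not at hcon
  apply hg j
  have hle : (Submodule.span (MvPolynomial σ k) (s : Set (MvPolynomial σ k)))
      ≤ RingHom.ker (MvPolynomial.eval (x j)) := by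
    rw [Submodule.span_le]
    intro q hq
    have h1 := hcon (f q hq) (Finset.mem_image.mpr ⟨⟨q, hq⟩, Finset.mem_attach _ _, rfl⟩)
    rw [hf q hq] at h1
    exact h1
  have hmem : g j ∈ Submodule.span (MvPolynomial σ k) (s : Set (MvPolynomial σ k)) := by
    rw [← hspan]
    exact Submodule.subset_span ⟨j, rfl⟩
  exact hle hmem

end Noeth

end Vale.Agent.Lib.P195
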