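import Vale.Agent.Lib.P195.HomLength

/-!
The module-theoretic core: the comparison between Hom groups from a syzygy to a module of
Loewy length at most two.
-/

set_option linter.style.haveILetI false
set_option linter.unusedVariables false

namespace Vale.Agent.Lib.P195

universe u

variable (S : Type*) [CommRing S] {R : Type u} [Ring R] [Algebra S R]

/-- The radical `J • X` of a module. -/
abbrev rad (R : Type u) [Ring R] (X : Type u) [AddCommGroup X] [Module R X] : Submodule R X :=
  Ring.jacobson R • (⊤ : Submodule R X)

variable {P N N' P' X : Type u}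
  [AddCommGroup P] [Module R P] [AddCommGroup N] [Module R N]
  [AddCommGroup N'] [Module R N'] [AddCommGroup P'] [Module R P']
  [AddCommGroup X] [Module R X]

/-- Linear maps preserve the radical. -/
lemma map_mem_rad (g : P →ₗ[R] X) {x : P} (hx : x ∈ rad R P) : g x ∈ rad R X := by
  have h : (rad R P).map g ≤ rad R X := by
    rw [Submodule.map_smul'']
    exact Submodule.smul_mono le_rfl le_top
  exact h (Submodule.mem_map_of_mem hx)

/-- A map from a module to a module killed by the radical factors through a projective cover:
the two Hom groups have the same length. -/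
lemma hlen_cover (π : P →ₗ[R] N) (hπ : Function.Surjective π)
    (hK : LinearMap.ker π ≤ rad R P) (Y : Type u) [AddCommGroup Y] [Module R Y]
    (hY : ∀ a ∈ Ring.jacobson R, ∀ y : Y, a • y = 0) :
    hlen S R N Y = hlen S R P Y := by
  apply hlen_congr_pre S π
  constructor
  · intro f g hfg
    ext x
    obtain ⟨y, rfl⟩ := hπ x
    exact LinearMap.congr_fun hfg y
  · intro g
    -- g kills the radical of P
    have hg : LinearMap.ker π ≤ LinearMap.ker g := by
      intro x hx
      have hx' := hK hx
      have : (rad R P).map g ≤ ⊥ := by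
        rw [Submodule.map_smul'', Submodule.smul_le]
        intro a ha y _
        simp [hY a ha y]
      have := this (Submodule.mem_map_of_mem hx')
      simpa using this
    refine ⟨((LinearMap.ker π).liftQ g hg) ∘ₗ (π.quotKerEquivOfSurjective hπ).symm.toLinearMap, ?_⟩
    ext x
    have : (π.quotKerEquivOfSurjective hπ).symm (π x) = Submodule.Quotient.mk x := by
      rw [LinearEquiv.symm_apply_eq]
      rfl
    simp [this]

/-- If all maps land in the radical, restricting the target to the radical does not change the
length. -/
lemma hlen_land (X : Type u) [AddCommGroup X] [Module R X]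
    (hland : ∀ f : N →ₗ[R] X, ∀ x, f x ∈ rad R X) :
    hlen S R N (rad R X) = hlen S R N X := by
  apply hlen_congr_post S (rad R X).subtype
  constructor
  · intro f g hfg
    ext x
    exact LinearMap.congr_fun hfg x
  · intro f
    exact ⟨f.codRestrict _ (hland f), by ext; simp⟩

variable [IsArtinianRing S] [Module.Finite S R]

/-- Every homomorphism which does not land in the radical makes the length strictly bigger. -/
lemma hlen_rad_lt (X : Type u) [AddCommGroup X] [Module R X] [Module.Finite R N] [Module.Finite R X]
    (hN : IsNoetherian R X)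
    (f : N →ₗ[R] X) (hf : ¬ LinearMap.range f ≤ rad R X) :
    hlen S R N (rad R X) < hlen S R N X := by
  apply hlen_lt_of_post S (rad R X).subtype (rad R X).injective_subtype f
  simpa using hf

/-- Additivity along the radical sequence. -/
lemma hlen_rad_add (X : Type u) [AddCommGroup X] [Module R X] [Module.Finite R X]
    [Module.Finite R P] [Module.Projective R P] (hN : IsNoetherian R X) :
    hlen S R P X = hlen S R P (rad R X) + hlen S R P (X ⧸ rad R X) := by
  apply hlen_add_of_exact_post S (rad R X).subtype (rad R X).mkQ (rad R X).injective_subtype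
    (Submodule.mkQ_surjective _)
  exact LinearMap.exact_subtype_mkQ _

/-- The key equation for one step of the resolution. -/
theorem hlen_step (X : Type u) [AddCommGroup X] [Module R X] [Module.Finite R X]
    (hXfin : IsNoetherian R X)
    [Module.Finite R N] [Module.Finite R N'] [Module.Finite R P] [Module.Projective R P]
    [Module.Finite R P']
    (hX2 : ∀ a ∈ Ring.jacobson R, ∀ y : rad R X, a • y = 0)
    (ι : N' →ₗ[R] P) (π : P →ₗ[R] N) (hι : Function.Injective ι) (hπ : Function.Surjective π)
    (hex : Function.Exact ι π) (hmin : LinearMap.range ι ≤ rad R P)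
    (hext : ∀ f : N' →ₗ[R] X, ∃ g : P →ₗ[R] X, g ∘ₗ ι = f)
    (π' : P' →ₗ[R] N') (hπ' : Function.Surjective π') (hK' : LinearMap.ker π' ≤ rad R P') :
    hlen S R P (rad R X) + hlen S R P (X ⧸ rad R X) = hlen S R N X + hlen S R P' (rad R X) := by
  rw [← hlen_rad_add S X hXfin, hlen_add_of_extend S ι π hι hπ hex hext]
  congr 1
  rw [← hlen_land S X, hlen_cover S π' hπ' hK' _ hX2]
  intro f x
  obtain ⟨g, rfl⟩ := hext f
  exact map_mem_rad g (hmin (LinearMap.mem_range_self ι x))

omit [IsArtinianRing S] [Module.Finite S R] in
/-- In the range above the diagonal: the Hom group from a syzygy to `X` is computed by the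
projective cover. -/
theorem hlen_syz_eq (X : Type u) [AddCommGroup X] [Module R X]
    (hX2 : ∀ a ∈ Ring.jacobson R, ∀ y : rad R X, a • y = 0)
    (ι : N →ₗ[R] P') (hmin : LinearMap.range ι ≤ rad R P')
    (hext : ∀ f : N →ₗ[R] X, ∃ g : P' →ₗ[R] X, g ∘ₗ ι = f)
    (π : P →ₗ[R] N) (hπ : Function.Surjective π) (hK : LinearMap.ker π ≤ rad R P) :
    hlen S R N X = hlen S R P (rad R X) := by
  rw [← hlen_land S X, hlen_cover S π hπ hK _ hX2]
  intro f x
  obtain ⟨g, rfl⟩ := hext f
  exact map_mem_rad g (hmin (LinearMap.mem_range_self ι x))

/-- On the diagonal: the strict inequality. -/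
theorem hlen_diag_lt (X : Type u) [AddCommGroup X] [Module R X] [Module.Finite R X]
    [Module.Finite R P] [Nontrivial X] (hXfin : IsNoetherian R X)
    (hX2 : ∀ a ∈ Ring.jacobson R, ∀ y : rad R X, a • y = 0)
    (π : P →ₗ[R] X) (hπ : Function.Surjective π) (hK : LinearMap.ker π ≤ rad R P) :
    hlen S R P (rad R X) < hlen S R X X := by
  rw [← hlen_cover S π hπ hK _ hX2]
  apply hlen_rad_lt S X hXfin LinearMap.id
  intro h
  -- Nakayama
  have htop : (⊤ : Submodule R X) ≤ rad R X := by
    intro x _
    exact h (LinearMap.mem_range_self _ x)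
  have : (⊤ : Submodule R X) = ⊥ :=
    Submodule.FG.eq_bot_of_le_jacobson_smul (Module.Finite.fg_top) htop
  exact top_ne_bot this

end Vale.Agent.Lib.P195
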