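import Vale.Agent.Lib.P195.Cover
import Vale.Agent.Lib.P195.ExtLemmas
import Vale.Agent.Lib.P195.Tri

/-!
Minimal projective resolutions as sequences of short exact sequences, their existence over a left
Artinian ring, and the vanishing of `Ext` between syzygies.
-/

set_option linter.style.haveILetI false
set_option linter.unusedVariables false

open CategoryTheory Abelian

namespace Vale.Agent.Lib.P195

universe u

variable {R : Type u} [Ring R]

/-- A minimal projective resolution written as a sequence of short exact sequences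
`0 → X (i+1) → P i → X i → 0` with `P i` finite projective and `X (i+1) ⊆ J • P i`. -/
structure Syz (R : Type u) [Ring R] where
  X : ℕ → ModuleCat.{u} R
  P : ℕ → ModuleCat.{u} R
  ι : ∀ i, X (i + 1) ⟶ P i
  π : ∀ i, P i ⟶ X i
  w : ∀ i, ι i ≫ π i = 0
  sexact : ∀ i, (ShortComplex.mk (ι i) (π i) (w i)).ShortExact
  finX : ∀ i, Module.Finite R (X i)
  finP : ∀ i, Module.Finite R (P i)
  projP : ∀ i, Module.Projective R (P i)
  minimal : ∀ i, LinearMap.range (ι i).hom ≤ rad R (P i)

/-- A chosen cover. -/
lemma exists_cover_cat [IsArtinianRing R] (N : ModuleCat.{u} R) [Module.Finite R N] :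
    ∃ (P : ModuleCat.{u} R) (π : P ⟶ N), Module.Finite R P ∧ Module.Projective R P ∧
      Function.Surjective π.hom ∧ LinearMap.ker π.hom ≤ rad R P := by
  obtain ⟨P, iA, iM, iF, iP, π, hπ, hK⟩ := exists_cover (R := R) N
  exact ⟨ModuleCat.of R P, ModuleCat.ofHom π, iF, iP, hπ, hK⟩

/-- The type of finite modules, for the recursion. -/
abbrev FinMod (R : Type u) [Ring R] := {N : ModuleCat.{u} R // Module.Finite R N}

section Recursion

variable [IsArtinianRing R]

/-- The projective cover, chosen. -/
noncomputable def FinMod.cov (N : FinMod R) : ModuleCat.{u} R :=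
  haveI := N.2
  (exists_cover_cat N.1).choose

/-- The covering map, chosen. -/
noncomputable def FinMod.covMap (N : FinMod R) : N.cov ⟶ N.1 :=
  haveI := N.2
  (exists_cover_cat N.1).choose_spec.choose

lemma FinMod.cov_spec (N : FinMod R) :
    Module.Finite R N.cov ∧ Module.Projective R N.cov ∧
      Function.Surjective N.covMap.hom ∧ LinearMap.ker N.covMap.hom ≤ rad R N.cov :=
  haveI := N.2
  (exists_cover_cat N.1).choose_spec.choose_spec

/-- The syzygy. -/
noncomputable def FinMod.next (N : FinMod R) : FinMod R :=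
  ⟨ModuleCat.of R (LinearMap.ker N.covMap.hom), by
    haveI := N.cov_spec.1
    infer_instance⟩

/-- The sequence of syzygies. -/
noncomputable def syzSeq (N : FinMod R) : ℕ → FinMod R
  | 0 => N
  | i + 1 => (syzSeq N i).next

/-- Existence of minimal resolutions. -/
lemma exists_syz (M : ModuleCat.{u} R) [hM : Module.Finite R M] :
    ∃ s : Syz R, s.X 0 = M := by
  let N : FinMod R := ⟨M, hM⟩
  let ι : ∀ i, ModuleCat.of R (LinearMap.ker ((syzSeq N i).covMap.hom)) ⟶ (syzSeq N i).cov :=
    fun i => ModuleCat.ofHom (LinearMap.ker ((syzSeq N i).covMap.hom)).subtype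
  refine ⟨⟨fun i => (syzSeq N i).1, fun i => (syzSeq N i).cov, ι, fun i => (syzSeq N i).covMap,
    ?_, ?_, fun i => (syzSeq N i).2, fun i => (syzSeq N i).cov_spec.1,
    fun i => (syzSeq N i).cov_spec.2.1, ?_⟩, rfl⟩
  · intro i
    ext x
    exact x.2
  · intro i
    exact LinearMap.shortExact_shortComplexKer (syzSeq N i).cov_spec.2.2.1
  · intro i
    have := (syzSeq N i).cov_spec.2.2.2
    refine le_trans ?_ this
    rintro _ ⟨x, rfl⟩
    exact x.2

end Recursion

namespace Syz

variable (s : Syz R)

instance (i : ℕ) : Module.Finite R (s.X i) := s.finX i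
instance (i : ℕ) : Module.Finite R (s.P i) := s.finP i
instance (i : ℕ) : Module.Projective R (s.P i) := s.projP i
instance (i : ℕ) : Projective (s.P i) := (s.P i).projective_of_categoryTheory_projective

/-- The short complex of a step. -/
abbrev sc (i : ℕ) : ShortComplex (ModuleCat.{u} R) := ShortComplex.mk (s.ι i) (s.π i) (s.w i)

lemma ι_injective (i : ℕ) : Function.Injective (s.ι i).hom :=
  (ModuleCat.mono_iff_injective _).mp (s.sexact i).mono_f

lemma π_surjective (i : ℕ) : Function.Surjective (s.π i).hom :=
  (ModuleCat.epi_iff_surjective _).mp (s.sexact i).epi_g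

lemma exact_ι_π (i : ℕ) : Function.Exact (s.ι i).hom (s.π i).hom :=
  (ShortComplex.ShortExact.moduleCat_exact_iff_function_exact _).mp (s.sexact i).exact

lemma ker_π_le (i : ℕ) : LinearMap.ker (s.π i).hom ≤ rad R (s.P i) := by
  rw [(s.exact_ι_π i).linearMap_ker_eq]
  exact s.minimal i

/-- Shift in the first variable along the resolution. -/
lemma ext_first_iter (Y : ModuleCat.{u} R) (i n : ℕ)
    (h : ∀ e : Ext (s.X 0) Y (n + 1 + i), e = 0) (e : Ext (s.X i) Y (n + 1)) : e = 0 := by
  induction i generalizing n with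
  | zero => exact h e
  | succ i ih =>
    refine ext_shift_first (S := s.sc i) (s.sexact i) Y n ?_ e
    refine ih (n + 1) ?_
    have h' : n + 1 + 1 + i = n + 1 + (i + 1) := by omega
    rw [h']
    exact h

/-- Vanishing of `Ext` between syzygies: the group `Ext^{n+1}(X (k+d), X k)` is controlled by
`Ext^{n+1+d}(M, M)`, given enough vanishing of `Ext(M, R)`. -/
lemma ext_tri_gen (d n : ℕ) (hMM : ∀ e : Ext (s.X 0) (s.X 0) (n + 1 + d), e = 0)
    (B : ℕ) (hMR : ∀ a, 1 ≤ a → a ≤ B → ∀ e : Ext (s.X 0) (ModuleCat.of R R) a, e = 0)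
    (k : ℕ) (hB : k + d + n + 1 ≤ B) (e : Ext (s.X (k + d)) (s.X k) (n + 1)) : e = 0 := by
  induction k with
  | zero =>
    have h0 : 0 + d = d := Nat.zero_add d
    revert e
    rw [h0]
    intro e
    exact s.ext_first_iter _ d n hMM e
  | succ k ih =>
    have key : ∀ e' : Ext (s.X (k + d + 1)) (s.X (k + 1)) (n + 1), e' = 0 := by
      intro e'
      refine ext_shift_first (S := s.sc (k + d)) (s.sexact (k + d)) _ n ?_ e'
      intro e2
      refine ext_shift_second (S := s.sc k) (s.sexact k) (s.X (k + d)) (n + 1) ?_ ?_ e2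
      · intro e3
        exact ih (by omega) e3
      · intro e3
        refine ext_proj_vanish (s.P k) ?_ e3
        intro e4
        refine s.ext_first_iter _ (k + d) (n + 1) ?_ e4
        exact hMR _ (by omega) (by omega)
    have h : k + 1 + d = k + d + 1 := by omega
    revert e
    rw [h]
    exact key

end Syz

end Vale.Agent.Lib.P195
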